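import Vale.Agent.Lib.P254.TW.Defs
import Vale.Agent.Lib.P254.Ramp.BodyP

/-!
P254, truncated-wedge class: the body

For `a, e ≥ 0`, `a + e > 0` and a continuous concave profile `R ≥ 0` on `[0,1]`, not identically
zero, the body `{x ∈ ℝ³ | 0 ≤ x₀ ≤ 1, |x₁| ≤ a + e x₀, |x₂| ≤ R x₀}` has isotropic constant at
most that of the tetrahedra as soon as the one-dimensional inequality (TW) holds for `R`.
-/

open MeasureTheory Set

namespace Vale.Agent.Lib.P254.TW

open Vale.Agent.Lib.P254 Vale.Agent.Lib.P254.Ramp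

/-- The truncated wedge with parameters `a`, `e` and profile `R`. -/
def twBody (a e : ℝ) (R : ℝ → ℝ) : Set (Fin 3 → ℝ) :=
  {x | 0 ≤ x 0 ∧ x 0 ≤ 1 ∧ |x 1| ≤ a + e * x 0 ∧ |x 2| ≤ R (x 0)}

theorem twBody_eq (a e : ℝ) (R : ℝ → ℝ) : twBody a e R = wedgeP (fun t => a + e * t) R := rfl

theorem aff_concaveOn (a e : ℝ) : ConcaveOn ℝ (Icc (0:ℝ) 1) (fun t : ℝ => a + e * t) := by
  refine ⟨convex_Icc 0 1, fun x _ y _ s r _ _ hsr => le_of_eq ?_⟩
  simp only [smul_eq_mul]
  linear_combination a * hsr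

theorem aff_continuous (a e : ℝ) : Continuous (fun t : ℝ => a + e * t) := by
  fun_prop

theorem aff_nonneg {a e : ℝ} (ha : 0 ≤ a) (he : 0 ≤ e) :
    ∀ t ∈ Icc (0:ℝ) 1, 0 ≤ a + e * t := by
  intro t ht
  have h2 : 0 ≤ e * t := mul_nonneg he ht.1
  linarith

theorem aff_pos_somewhere {a e : ℝ} (hae : 0 < a + e) :
    ∃ t ∈ Icc (0:ℝ) 1, 0 < a + e * t := by
  refine ⟨1, ⟨zero_le_one, le_refl _⟩, ?_⟩
  rw [mul_one]
  exact hae

/-- `∫ (a + e z)² R = a mA + e mM1`. -/
theorem int_sq_weight (a e : ℝ) (R : ℝ → ℝ) (hcont : ContinuousOn R (Icc 0 1)) :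
    ∫ t in (0:ℝ)..1, (a + e * t) ^ 2 * R t = a * mA a e R + e * mM1 a e R := by
  have hR : ContinuousOn R (uIcc (0:ℝ) 1) := by
    rw [uIcc_of_le zero_le_one]
    exact hcont
  have hw : Continuous fun z : ℝ => a + e * z := aff_continuous a e
  have h1 : IntervalIntegrable (fun z : ℝ => (a + e * z) * R z) volume 0 1 :=
    (hw.continuousOn.mul hR).intervalIntegrable
  have h2 : IntervalIntegrable (fun z : ℝ => (a + e * z) * (z * R z)) volume 0 1 :=
    (hw.continuousOn.mul (continuous_id.continuousOn.mul hR)).intervalIntegrable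
  unfold mA mM1
  rw [← intervalIntegral.integral_const_mul, ← intervalIntegral.integral_const_mul,
    ← intervalIntegral.integral_add (h1.const_mul a) (h2.const_mul e)]
  exact intervalIntegral.integral_congr (fun t _ => by ring)

/-- **The truncated-wedge class, conditional on the one-dimensional inequality.** -/
theorem twBody_isotropic_le_of_ineq (a e : ℝ) (ha : 0 ≤ a) (he : 0 ≤ e) (hae : 0 < a + e)
    (R : ℝ → ℝ) (hc : ConcaveOn ℝ (Icc 0 1) R) (hcont : ContinuousOn R (Icc 0 1))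
    (hpos : ∀ t ∈ Icc (0:ℝ) 1, 0 ≤ R t) (hne : ∃ t ∈ Icc (0:ℝ) 1, 0 < R t)
    (h1d : 80 * (a * mA a e R + e * mM1 a e R) ^ 2 * (mS a e R) ^ 2 *
        (mA a e R * mM2 a e R - (mM1 a e R) ^ 2) ≤ 9 * (mA a e R) ^ 8)
    (T : Fin 4 → Fin 3 → ℝ) (hT : AffineIndependent ℝ T) :
    isotropicConstant (twBody a e R) ≤ isotropicConstant (convexHull ℝ (Set.range T)) := by
  rw [twBody_eq]
  refine wedgeP_isotropic_le_of_ineq (fun t => a + e * t) R (aff_concaveOn a e) hc
    (aff_continuous a e).continuousOn hcont (aff_nonneg ha he) hpos (aff_pos_somewhere hae) hne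
    ?_ T hT
  have hM1 : ∫ t in (0:ℝ)..1, t * ((a + e * t) * R t) = mM1 a e R := by
    unfold mM1
    exact intervalIntegral.integral_congr (fun t _ => by ring)
  have hM2 : ∫ t in (0:ℝ)..1, t ^ 2 * ((a + e * t) * R t) = mM2 a e R := by
    unfold mM2
    exact intervalIntegral.integral_congr (fun t _ => by ring)
  have hA : ∫ t in (0:ℝ)..1, (a + e * t) * R t = mA a e R := rfl
  have hS : ∫ t in (0:ℝ)..1, (a + e * t) * (R t) ^ 2 = mS a e R := rfl
  rw [hM1, hM2, hA, hS, int_sq_weight a e R hcont]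
  exact h1d

end Vale.Agent.Lib.P254.TW
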