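import Mathlib

/-!
# P254, truncated-wedge class: definitions for the one-dimensional inequality (TW)

Weight `a + e z` on `[0,1]` (`a, e ≥ 0`, `a + e > 0`).  For a profile `R` on `[0,1]` we use the
weighted moments `mA = ∫ (a+ez) R`, `mM1 = ∫ (a+ez) z R`, `mM2 = ∫ (a+ez) z² R`,
`mS = ∫ (a+ez) R²`, the Green kernel `gk c z = min (z (1-c)) (c (1-z))`, four polynomial
kernels and the projection `pk a e c` of `gk c` on affine functions in `L²((a+ez) dz)`.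
For `a = 0`, `e = 1` these are the objects of `Vale.Agent.Lib.P254.Ramp`.
-/

namespace Vale.Agent.Lib.P254.TW

noncomputable section

/-- `∫₀¹ (a + e z) R`. -/
def mA (a e : ℝ) (R : ℝ → ℝ) : ℝ := ∫ z in (0:ℝ)..1, (a + e * z) * R z

/-- `∫₀¹ (a + e z) z R`. -/
def mM1 (a e : ℝ) (R : ℝ → ℝ) : ℝ := ∫ z in (0:ℝ)..1, (a + e * z) * (z * R z)

/-- `∫₀¹ (a + e z) z² R`. -/
def mM2 (a e : ℝ) (R : ℝ → ℝ) : ℝ := ∫ z in (0:ℝ)..1, (a + e * z) * (z ^ 2 * R z)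

/-- `∫₀¹ (a + e z) R²`. -/
def mS (a e : ℝ) (R : ℝ → ℝ) : ℝ := ∫ z in (0:ℝ)..1, (a + e * z) * (R z) ^ 2

/-- `72` times the Gram determinant of `1, z` for the weight `a + e z`. -/
def Dl (a e : ℝ) : ℝ := e ^ 2 + 6 * a * e + 6 * a ^ 2

/-- First constant of the sharp bound `(F4')`. -/
def q1 (a e : ℝ) : ℝ := e ^ 2 + 8 * a * e + 10 * a ^ 2

/-- Second constant of the sharp bound `(F4')`. -/
def q2 (a e : ℝ) : ℝ := 2 * e + 3 * a

/-- The Green kernel of `-d²/dz²` on `[0,1]` with zero boundary values. -/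
def gk (c z : ℝ) : ℝ := min (z * (1 - c)) (c * (1 - z))

/-- Kernel of `mA`: `-kA'' = a + e c`. -/
def kA (a e c : ℝ) : ℝ := c * (1 - c) * (e + 3 * a + e * c) / 6

/-- Kernel of `Dl * al`. -/
def kal (a e c : ℝ) : ℝ := c * (1 - c) ^ 2 * (Dl a e + (2 * e ^ 2 + 3 * a * e) * c)

/-- Kernel of `Dl * be`. -/
def kbe (a e c : ℝ) : ℝ := c ^ 2 * (1 - c) * ((3 * a * e + 6 * a ^ 2) + (e ^ 2 + 3 * a * e) * c)

/-- Kernel of `Lf`. -/
def kl (a e c : ℝ) : ℝ :=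
  c ^ 2 * (1 - c) ^ 2 * ((3 * a * e ^ 2 + 12 * a ^ 2 * e + 10 * a ^ 3) + e * Dl a e * c) / 20

/-- The projection of `gk c` on affine functions for the weight `(a + e z) dz` on `[0,1]`. -/
def pk (a e c z : ℝ) : ℝ := (kal a e c * (1 - z) + kbe a e c * z) / Dl a e

/-- Left end value of the projection of `R` on affine functions. -/
def al (a e : ℝ) (R : ℝ → ℝ) : ℝ :=
  6 * ((3 * e + 4 * a) * mA a e R - (4 * e + 6 * a) * mM1 a e R) / Dl a e

/-- Right end value of the projection of `R` on affine functions. -/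
def be (a e : ℝ) (R : ℝ → ℝ) : ℝ :=
  6 * ((2 * e + 6 * a) * mM1 a e R - (e + 2 * a) * mA a e R) / Dl a e

/-- `R` minus its projection on affine functions. -/
def psi (a e : ℝ) (R : ℝ → ℝ) (z : ℝ) : ℝ :=
  R z - (al a e R * (1 - z) + be a e R * z)

/-- `Dl` times the variance defect `⟨p, z²⟩ - ⟨R, z²⟩` (a nonnegative functional of `-R''`). -/
def Lf (a e : ℝ) (R : ℝ → ℝ) : ℝ :=
  (6 * e ^ 2 + 32 * a * e + 30 * a ^ 2) * mM1 a e R / 5
    - (3 * e ^ 2 + 12 * a * e + 10 * a ^ 2) * mA a e R / 10 - Dl a e * mM2 a e R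

/-- Numerator polynomial of the exact norm of `gk c - pk a e c`. -/
def Nn (a e c : ℝ) : ℝ :=
  (4 * a * e ^ 2 + 24 * a ^ 2 * e + 24 * a ^ 3) + (e ^ 3 + 18 * a * e ^ 2 + 24 * a ^ 2 * e) * c
    + (3 * e ^ 3 + 6 * a * e ^ 2) * c ^ 2

end

end Vale.Agent.Lib.P254.TW
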