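import Vale.Agent.Lib.P254.TW.Smooth
import Vale.Agent.Lib.P254.TW.Body

/-!
P254, truncated-wedge class: the final statement

For `a, e ≥ 0`, `a + e > 0` and a continuous concave profile `R ≥ 0` on `[0,1]`, not identically
zero, the body `{x ∈ ℝ³ | 0 ≤ x₀ ≤ 1, |x₁| ≤ a + e x₀, |x₂| ≤ R x₀}` has isotropic constant at
most that of the tetrahedra.  The case `a = 0`, `e = 1` is the wedge class, the case `e = 0` is
the class of the bodies `[0,1] × [-a,a] × {|x₂| ≤ R x₀}`.
-/

open MeasureTheory Set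

namespace Vale.Agent.Lib.P254.TW

open Vale.Agent.Lib.P254

/-- **The truncated-wedge class.** -/
theorem twBody_isotropic_le (a e : ℝ) (ha : 0 ≤ a) (he : 0 ≤ e) (hae : 0 < a + e)
    (R : ℝ → ℝ) (hc : ConcaveOn ℝ (Icc 0 1) R) (hcont : ContinuousOn R (Icc 0 1))
    (hpos : ∀ t ∈ Icc (0:ℝ) 1, 0 ≤ R t) (hne : ∃ t ∈ Icc (0:ℝ) 1, 0 < R t)
    (T : Fin 4 → Fin 3 → ℝ) (hT : AffineIndependent ℝ T) :
    isotropicConstant (twBody a e R) ≤ isotropicConstant (convexHull ℝ (Set.range T)) :=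
  twBody_isotropic_le_of_ineq a e ha he hae R hc hcont hpos hne
    (tw_ineq_concave a e ha he hae R hc hpos) T hT

/-- **The truncated-wedge class, with the convex-body properties.** The body is compact, convex,
has nonempty interior, and `L_K ≤ L_T` for every tetrahedron `T`. -/
theorem twBody_convexBody_isotropic_le (a e : ℝ) (ha : 0 ≤ a) (he : 0 ≤ e) (hae : 0 < a + e)
    (R : ℝ → ℝ) (hc : ConcaveOn ℝ (Icc 0 1) R) (hcont : ContinuousOn R (Icc 0 1))
    (hpos : ∀ t ∈ Icc (0:ℝ) 1, 0 ≤ R t) (hne : ∃ t ∈ Icc (0:ℝ) 1, 0 < R t)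
    (T : Fin 4 → Fin 3 → ℝ) (hT : AffineIndependent ℝ T) :
    IsCompact (twBody a e R) ∧ Convex ℝ (twBody a e R) ∧ (interior (twBody a e R)).Nonempty ∧
      isotropicConstant (twBody a e R) ≤ isotropicConstant (convexHull ℝ (Set.range T)) := by
  refine ⟨?_, ?_, ?_, twBody_isotropic_le a e ha he hae R hc hcont hpos hne T hT⟩
  · rw [twBody_eq]
    exact Ramp.wedgeP_isCompact (aff_continuous a e).continuousOn hcont
  · rw [twBody_eq]
    exact Ramp.wedgeP_convex (aff_concaveOn a e) hc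
  · rw [twBody_eq]
    exact Ramp.wedgeP_interior (aff_concaveOn a e) hc (aff_continuous a e).continuousOn hcont
      (aff_nonneg ha he) hpos (aff_pos_somewhere hae) hne

end Vale.Agent.Lib.P254.TW
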