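import Vale.Agent.Lib.P254.TW.Defs

/-!
# P254, truncated-wedge class: the one-dimensional inequality (TW)

Weight `a + e z` on `[0,1]`, `a, e ≥ 0`, `a + e > 0`; `R ≥ 0` with `R'' ≤ 0` on `[0,1]`:
`80 (a A + e M1)^2 S^2 (A M2 - M1^2) ≤ 9 A^8` (`tw_ineq`), through the tangent-line form
`(a A + e M1) S + 15 A (A M2 - M1^2) ≤ (9/4) A^3`.  For `a = 0`, `e = 1` this is
`Vale.Agent.Lib.P254.Ramp.ramp_ineq`.  Sections proved by the crew (tasks 1907-1922).
-/

namespace Vale.Agent.Lib.P254.TW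

open MeasureTheory intervalIntegral Set

-- section POS (helper36)
/-! ### POS: positivity of the constants and of the kernels -/

theorem Dl_pos (a e : ℝ) (ha : 0 ≤ a) (he : 0 ≤ e) (hae : 0 < a + e) : 0 < Dl a e := by
  unfold Dl
  nlinarith [mul_nonneg ha he, sq_nonneg a, mul_pos hae hae]

theorem q1_pos (a e : ℝ) (ha : 0 ≤ a) (he : 0 ≤ e) (hae : 0 < a + e) : 0 < q1 a e := by
  unfold q1
  nlinarith [mul_nonneg ha he, sq_nonneg a, mul_pos hae hae]

theorem q2_pos (a e : ℝ) (ha : 0 ≤ a) (he : 0 ≤ e) (hae : 0 < a + e) : 0 < q2 a e := by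
  unfold q2
  linarith

theorem tw_pos_Dl_nonneg (a e : ℝ) (ha : 0 ≤ a) (he : 0 ≤ e) : 0 ≤ Dl a e := by
  unfold Dl
  nlinarith [mul_nonneg ha he, sq_nonneg a, sq_nonneg e]

theorem kA_nonneg (a e : ℝ) (ha : 0 ≤ a) (he : 0 ≤ e) (c : ℝ) (hc : c ∈ Icc (0:ℝ) 1) :
    0 ≤ kA a e c := by
  obtain ⟨hc0, hc1⟩ := hc
  have h1 : 0 ≤ 1 - c := by linarith
  have h2 : 0 ≤ e + 3 * a + e * c := by
    have h := mul_nonneg he hc0
    linarith
  unfold kA
  exact div_nonneg (mul_nonneg (mul_nonneg hc0 h1) h2) (by norm_num)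

theorem kal_nonneg (a e : ℝ) (ha : 0 ≤ a) (he : 0 ≤ e) (c : ℝ) (hc : c ∈ Icc (0:ℝ) 1) :
    0 ≤ kal a e c := by
  obtain ⟨hc0, hc1⟩ := hc
  have hD := tw_pos_Dl_nonneg a e ha he
  have h2 : 0 ≤ 2 * e ^ 2 + 3 * a * e := by
    have h := mul_nonneg ha he
    have h' := sq_nonneg e
    linarith
  have h3 : 0 ≤ (2 * e ^ 2 + 3 * a * e) * c := mul_nonneg h2 hc0
  unfold kal
  exact mul_nonneg (mul_nonneg hc0 (sq_nonneg _)) (add_nonneg hD h3)

theorem kbe_nonneg (a e : ℝ) (ha : 0 ≤ a) (he : 0 ≤ e) (c : ℝ) (hc : c ∈ Icc (0:ℝ) 1) :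
    0 ≤ kbe a e c := by
  obtain ⟨hc0, hc1⟩ := hc
  have h1 : 0 ≤ 1 - c := by linarith
  have h2 : 0 ≤ 3 * a * e + 6 * a ^ 2 := by
    have h := mul_nonneg ha he
    have h' := sq_nonneg a
    linarith
  have h3 : 0 ≤ e ^ 2 + 3 * a * e := by
    have h := mul_nonneg ha he
    have h' := sq_nonneg e
    linarith
  unfold kbe
  exact mul_nonneg (mul_nonneg (sq_nonneg c) h1) (add_nonneg h2 (mul_nonneg h3 hc0))

theorem kl_nonneg (a e : ℝ) (ha : 0 ≤ a) (he : 0 ≤ e) (c : ℝ) (hc : c ∈ Icc (0:ℝ) 1) :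
    0 ≤ kl a e c := by
  obtain ⟨hc0, hc1⟩ := hc
  have hD := tw_pos_Dl_nonneg a e ha he
  have h4 : 0 ≤ 3 * a * e ^ 2 + 12 * a ^ 2 * e + 10 * a ^ 3 := by
    have h := mul_nonneg ha (sq_nonneg e)
    have h' := mul_nonneg (sq_nonneg a) he
    have h'' := pow_nonneg ha 3
    linarith
  have h5 : 0 ≤ e * Dl a e * c := mul_nonneg (mul_nonneg he hD) hc0
  unfold kl
  exact div_nonneg (mul_nonneg (mul_nonneg (sq_nonneg c) (sq_nonneg (1 - c)))
    (add_nonneg h4 h5)) (by norm_num)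

-- section IBP (helper44)
/-! ### IBP -/

theorem ibp2 (R R1 R2 K K1 K2 : ℝ → ℝ)
    (hR : ∀ x, HasDerivAt R (R1 x) x) (hR1 : ∀ x, HasDerivAt R1 (R2 x) x)
    (hR2 : Continuous R2)
    (hK : ∀ x, HasDerivAt K (K1 x) x) (hK1 : ∀ x, HasDerivAt K1 (K2 x) x)
    (hK2 : Continuous K2) (hK0 : K 0 = 0) (hK1' : K 1 = 0) :
    ∫ z in (0:ℝ)..1, R z * (-(K2 z)) =
      R 0 * K1 0 - R 1 * K1 1 + ∫ z in (0:ℝ)..1, (-(R2 z)) * K z := by
  have hRc : Continuous R := continuous_iff_continuousAt.mpr fun x => (hR x).continuousAt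
  have hKc : Continuous K := continuous_iff_continuousAt.mpr fun x => (hK x).continuousAt
  have hd : ∀ x ∈ uIcc (0:ℝ) 1,
      HasDerivAt (fun x => R1 x * K x - R x * K1 x) (R2 x * K x - R x * K2 x) x := by
    intro x _
    have h := ((hR1 x).mul (hK x)).sub ((hR x).mul (hK1 x))
    refine h.congr_deriv ?_
    ring
  have hi1 : IntervalIntegrable (fun x => R2 x * K x) volume 0 1 :=
    (hR2.mul hKc).intervalIntegrable _ _
  have hi2 : IntervalIntegrable (fun x => R x * K2 x) volume 0 1 :=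
    (hRc.mul hK2).intervalIntegrable _ _
  have hftc := intervalIntegral.integral_eq_sub_of_hasDerivAt hd (hi1.sub hi2)
  have hsplit : ∫ x in (0:ℝ)..1, (R2 x * K x - R x * K2 x)
      = (∫ x in (0:ℝ)..1, R2 x * K x) - ∫ x in (0:ℝ)..1, R x * K2 x :=
    intervalIntegral.integral_sub hi1 hi2
  have e1 : ∫ z in (0:ℝ)..1, R z * (-(K2 z)) = -∫ z in (0:ℝ)..1, R z * K2 z := by
    rw [← intervalIntegral.integral_neg]
    apply intervalIntegral.integral_congr
    intro z _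
    ring
  have e2 : ∫ z in (0:ℝ)..1, (-(R2 z)) * K z = -∫ z in (0:ℝ)..1, R2 z * K z := by
    rw [← intervalIntegral.integral_neg]
    apply intervalIntegral.integral_congr
    intro z _
    ring
  rw [e1, e2]
  rw [hsplit, hK0, hK1'] at hftc
  linarith

-- section MOM-A (helper17)
/-! ### MOM-A -/

theorem tw_moma_pow2 (x : ℝ) : HasDerivAt (fun c : ℝ => c ^ 2) (2 * x) x := by
  simpa using hasDerivAt_pow 2 x

theorem tw_moma_pow3 (x : ℝ) : HasDerivAt (fun c : ℝ => c ^ 3) (3 * x ^ 2) x := by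
  simpa using hasDerivAt_pow 3 x

theorem tw_moma_pow4 (x : ℝ) : HasDerivAt (fun c : ℝ => c ^ 4) (4 * x ^ 3) x := by
  simpa using hasDerivAt_pow 4 x

theorem tw_moma_kA_d1 (a e x : ℝ) :
    HasDerivAt (fun c : ℝ => kA a e c) (((e + 3 * a) - 6 * a * x - 3 * e * x ^ 2) / 6) x := by
  have hKeq : (fun c : ℝ => kA a e c)
      = fun c => ((e + 3 * a) * c - 3 * a * c ^ 2 - e * c ^ 3) / 6 := by
    funext c
    unfold kA
    ring
  rw [hKeq]
  have h : HasDerivAt (fun c : ℝ => ((e + 3 * a) * c - 3 * a * c ^ 2 - e * c ^ 3) / 6)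
      (((e + 3 * a) * 1 - 3 * a * (2 * x) - e * (3 * x ^ 2)) / 6) x :=
    ((((hasDerivAt_id' x).const_mul (e + 3 * a)).sub ((tw_moma_pow2 x).const_mul (3 * a))).sub
      ((tw_moma_pow3 x).const_mul e)).div_const 6
  exact h.congr_deriv (by ring)

theorem tw_moma_kA_d2 (a e x : ℝ) :
    HasDerivAt (fun c : ℝ => ((e + 3 * a) - 6 * a * c - 3 * e * c ^ 2) / 6) (-(a + e * x)) x := by
  have h : HasDerivAt (fun c : ℝ => ((e + 3 * a) - 6 * a * c - 3 * e * c ^ 2) / 6)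
      ((0 - 6 * a * 1 - 3 * e * (2 * x)) / 6) x :=
    (((hasDerivAt_const x (e + 3 * a)).sub ((hasDerivAt_id' x).const_mul (6 * a))).sub
      ((tw_moma_pow2 x).const_mul (3 * e))).div_const 6
  exact h.congr_deriv (by ring)

theorem tw_moma_quart_d1 (D B x : ℝ) :
    HasDerivAt (fun c : ℝ => D * c + (B - 2 * D) * c ^ 2 + (D - 2 * B) * c ^ 3 + B * c ^ 4)
      (D + 2 * (B - 2 * D) * x + 3 * (D - 2 * B) * x ^ 2 + 4 * B * x ^ 3) x := by
  have h : HasDerivAt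
      (fun c : ℝ => D * c + (B - 2 * D) * c ^ 2 + (D - 2 * B) * c ^ 3 + B * c ^ 4)
      (D * 1 + (B - 2 * D) * (2 * x) + (D - 2 * B) * (3 * x ^ 2) + B * (4 * x ^ 3)) x :=
    ((((hasDerivAt_id' x).const_mul D).add ((tw_moma_pow2 x).const_mul (B - 2 * D))).add
      ((tw_moma_pow3 x).const_mul (D - 2 * B))).add ((tw_moma_pow4 x).const_mul B)
  exact h.congr_deriv (by ring)

theorem tw_moma_quart_d2 (D B x : ℝ) :
    HasDerivAt (fun c : ℝ => D + 2 * (B - 2 * D) * c + 3 * (D - 2 * B) * c ^ 2 + 4 * B * c ^ 3)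
      (2 * (B - 2 * D) + 6 * (D - 2 * B) * x + 12 * B * x ^ 2) x := by
  have h : HasDerivAt
      (fun c : ℝ => D + 2 * (B - 2 * D) * c + 3 * (D - 2 * B) * c ^ 2 + 4 * B * c ^ 3)
      (2 * (B - 2 * D) * 1 + 3 * (D - 2 * B) * (2 * x) + 4 * B * (3 * x ^ 2)) x :=
    ((((hasDerivAt_id' x).const_mul (2 * (B - 2 * D))).const_add D).add
      ((tw_moma_pow2 x).const_mul (3 * (D - 2 * B)))).add ((tw_moma_pow3 x).const_mul (4 * B))
  exact h.congr_deriv (by ring)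

theorem tw_moma_kal_d1 (a e x : ℝ) :
    HasDerivAt (fun c : ℝ => kal a e c)
      (Dl a e + 2 * ((2 * e ^ 2 + 3 * a * e) - 2 * Dl a e) * x
        + 3 * (Dl a e - 2 * (2 * e ^ 2 + 3 * a * e)) * x ^ 2
        + 4 * (2 * e ^ 2 + 3 * a * e) * x ^ 3) x := by
  have hKeq : (fun c : ℝ => kal a e c)
      = fun c => Dl a e * c + ((2 * e ^ 2 + 3 * a * e) - 2 * Dl a e) * c ^ 2
        + (Dl a e - 2 * (2 * e ^ 2 + 3 * a * e)) * c ^ 3 + (2 * e ^ 2 + 3 * a * e) * c ^ 4 := by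
    funext c
    unfold kal
    ring
  rw [hKeq]
  exact tw_moma_quart_d1 (Dl a e) (2 * e ^ 2 + 3 * a * e) x

theorem A_eq (a e : ℝ) (R R1 R2 : ℝ → ℝ)
    (hR : ∀ x, HasDerivAt R (R1 x) x) (hR1 : ∀ x, HasDerivAt R1 (R2 x) x)
    (hR2 : Continuous R2) :
    mA a e R = R 0 * ((e + 3 * a) / 6) + R 1 * ((2 * e + 3 * a) / 6)
      + ∫ c in (0:ℝ)..1, (-(R2 c)) * kA a e c := by
  have hK2 : Continuous (fun c : ℝ => -(a + e * c)) := by fun_prop
  have key := ibp2 R R1 R2 (fun c : ℝ => kA a e c)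
    (fun c : ℝ => ((e + 3 * a) - 6 * a * c - 3 * e * c ^ 2) / 6) (fun c : ℝ => -(a + e * c))
    hR hR1 hR2 (tw_moma_kA_d1 a e) (tw_moma_kA_d2 a e) hK2
    (by unfold kA; norm_num) (by unfold kA; norm_num)
  have key' : ∫ z in (0:ℝ)..1, R z * (-(-(a + e * z))) =
      R 0 * (((e + 3 * a) - 6 * a * 0 - 3 * e * 0 ^ 2) / 6)
        - R 1 * (((e + 3 * a) - 6 * a * 1 - 3 * e * 1 ^ 2) / 6)
        + ∫ z in (0:ℝ)..1, (-(R2 z)) * kA a e z := key
  have hlin : ∫ z in (0:ℝ)..1, R z * (-(-(a + e * z))) = mA a e R := by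
    unfold mA
    refine intervalIntegral.integral_congr fun z _ => ?_
    show R z * (-(-(a + e * z))) = (a + e * z) * R z
    ring
  rw [← hlin, key']
  ring

theorem al_eq (a e : ℝ) (R R1 R2 : ℝ → ℝ)
    (hR : ∀ x, HasDerivAt R (R1 x) x) (hR1 : ∀ x, HasDerivAt R1 (R2 x) x)
    (hR2 : Continuous R2) :
    6 * ((3 * e + 4 * a) * mA a e R - (4 * e + 6 * a) * mM1 a e R) =
      Dl a e * R 0 + ∫ c in (0:ℝ)..1, (-(R2 c)) * kal a e c := by
  have hK2 : Continuous (fun c : ℝ => 2 * ((2 * e ^ 2 + 3 * a * e) - 2 * Dl a e)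
      + 6 * (Dl a e - 2 * (2 * e ^ 2 + 3 * a * e)) * c
      + 12 * (2 * e ^ 2 + 3 * a * e) * c ^ 2) := by fun_prop
  have key := ibp2 R R1 R2 (fun c : ℝ => kal a e c)
    (fun c : ℝ => Dl a e + 2 * ((2 * e ^ 2 + 3 * a * e) - 2 * Dl a e) * c
      + 3 * (Dl a e - 2 * (2 * e ^ 2 + 3 * a * e)) * c ^ 2
      + 4 * (2 * e ^ 2 + 3 * a * e) * c ^ 3)
    (fun c : ℝ => 2 * ((2 * e ^ 2 + 3 * a * e) - 2 * Dl a e)
      + 6 * (Dl a e - 2 * (2 * e ^ 2 + 3 * a * e)) * c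
      + 12 * (2 * e ^ 2 + 3 * a * e) * c ^ 2)
    hR hR1 hR2 (tw_moma_kal_d1 a e)
    (tw_moma_quart_d2 (Dl a e) (2 * e ^ 2 + 3 * a * e)) hK2
    (by unfold kal; norm_num) (by unfold kal; norm_num)
  have key' : ∫ z in (0:ℝ)..1, R z * (-(2 * ((2 * e ^ 2 + 3 * a * e) - 2 * Dl a e)
        + 6 * (Dl a e - 2 * (2 * e ^ 2 + 3 * a * e)) * z
        + 12 * (2 * e ^ 2 + 3 * a * e) * z ^ 2)) =
      R 0 * (Dl a e + 2 * ((2 * e ^ 2 + 3 * a * e) - 2 * Dl a e) * 0
          + 3 * (Dl a e - 2 * (2 * e ^ 2 + 3 * a * e)) * 0 ^ 2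
          + 4 * (2 * e ^ 2 + 3 * a * e) * 0 ^ 3)
        - R 1 * (Dl a e + 2 * ((2 * e ^ 2 + 3 * a * e) - 2 * Dl a e) * 1
          + 3 * (Dl a e - 2 * (2 * e ^ 2 + 3 * a * e)) * 1 ^ 2
          + 4 * (2 * e ^ 2 + 3 * a * e) * 1 ^ 3)
        + ∫ z in (0:ℝ)..1, (-(R2 z)) * kal a e z := key
  have hRc : Continuous R := continuous_iff_continuousAt.mpr (fun x => (hR x).continuousAt)
  have hlin : ∫ z in (0:ℝ)..1, R z * (-(2 * ((2 * e ^ 2 + 3 * a * e) - 2 * Dl a e)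
        + 6 * (Dl a e - 2 * (2 * e ^ 2 + 3 * a * e)) * z
        + 12 * (2 * e ^ 2 + 3 * a * e) * z ^ 2)) =
      6 * ((3 * e + 4 * a) * mA a e R - (4 * e + 6 * a) * mM1 a e R) := by
    have e1 : ∀ z : ℝ, R z * (-(2 * ((2 * e ^ 2 + 3 * a * e) - 2 * Dl a e)
        + 6 * (Dl a e - 2 * (2 * e ^ 2 + 3 * a * e)) * z
        + 12 * (2 * e ^ 2 + 3 * a * e) * z ^ 2))
        = (6 * (3 * e + 4 * a)) * ((a + e * z) * R z)
          - (6 * (4 * e + 6 * a)) * ((a + e * z) * (z * R z)) := fun z => by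
      unfold Dl
      ring
    have i1 : IntervalIntegrable (fun z : ℝ => (6 * (3 * e + 4 * a)) * ((a + e * z) * R z))
        volume 0 1 :=
      (by fun_prop : Continuous fun z : ℝ =>
        (6 * (3 * e + 4 * a)) * ((a + e * z) * R z)).intervalIntegrable _ _
    have i2 : IntervalIntegrable
        (fun z : ℝ => (6 * (4 * e + 6 * a)) * ((a + e * z) * (z * R z))) volume 0 1 :=
      (by fun_prop : Continuous fun z : ℝ =>
        (6 * (4 * e + 6 * a)) * ((a + e * z) * (z * R z))).intervalIntegrable _ _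
    unfold mA mM1
    simp only [e1]
    rw [intervalIntegral.integral_sub i1 i2, intervalIntegral.integral_const_mul,
      intervalIntegral.integral_const_mul]
    ring
  rw [← hlin, key']
  ring

-- section MOM-B (helper74)
/-! ### MOM-B -/

theorem tw_momb_d1 (p2 p3 p4 p5 : ℝ) (x : ℝ) :
    HasDerivAt (fun c : ℝ => p2 * c ^ 2 + p3 * c ^ 3 + p4 * c ^ 4 + p5 * c ^ 5)
      (2 * p2 * x + 3 * p3 * x ^ 2 + 4 * p4 * x ^ 3 + 5 * p5 * x ^ 4) x := by
  have hid := hasDerivAt_id' x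
  have h : HasDerivAt (fun c : ℝ => p2 * c ^ 2 + p3 * c ^ 3 + p4 * c ^ 4 + p5 * c ^ 5) _ x :=
    ((((hid.pow 2).const_mul p2).add ((hid.pow 3).const_mul p3)).add
      ((hid.pow 4).const_mul p4)).add ((hid.pow 5).const_mul p5)
  refine h.congr_deriv ?_
  simp
  ring

theorem tw_momb_d2 (p2 p3 p4 p5 : ℝ) (x : ℝ) :
    HasDerivAt (fun c : ℝ => 2 * p2 * c + 3 * p3 * c ^ 2 + 4 * p4 * c ^ 3 + 5 * p5 * c ^ 4)
      (2 * p2 + 6 * p3 * x + 12 * p4 * x ^ 2 + 20 * p5 * x ^ 3) x := by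
  have hid := hasDerivAt_id' x
  have h : HasDerivAt
      (fun c : ℝ => 2 * p2 * c + 3 * p3 * c ^ 2 + 4 * p4 * c ^ 3 + 5 * p5 * c ^ 4) _ x :=
    (((hid.const_mul (2 * p2)).add ((hid.pow 2).const_mul (3 * p3))).add
      ((hid.pow 3).const_mul (4 * p4))).add ((hid.pow 4).const_mul (5 * p5))
  refine h.congr_deriv ?_
  simp
  ring

/-- Two integrations by parts against a polynomial kernel `p2 c^2 + ... + p5 c^5` vanishing
at `1`. -/
theorem tw_momb_ibp (R R1 R2 : ℝ → ℝ)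
    (hR : ∀ x, HasDerivAt R (R1 x) x) (hR1 : ∀ x, HasDerivAt R1 (R2 x) x)
    (hR2 : Continuous R2) (p2 p3 p4 p5 : ℝ) (hp : p2 + p3 + p4 + p5 = 0) :
    ∫ z in (0:ℝ)..1, R z * (-(2 * p2 + 6 * p3 * z + 12 * p4 * z ^ 2 + 20 * p5 * z ^ 3)) =
      -(R 1 * (2 * p2 + 3 * p3 + 4 * p4 + 5 * p5))
        + ∫ z in (0:ℝ)..1, (-(R2 z)) * (p2 * z ^ 2 + p3 * z ^ 3 + p4 * z ^ 4 + p5 * z ^ 5) := by
  have h0 : (fun c : ℝ => p2 * c ^ 2 + p3 * c ^ 3 + p4 * c ^ 4 + p5 * c ^ 5) 0 = 0 := by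
    show p2 * (0:ℝ) ^ 2 + p3 * (0:ℝ) ^ 3 + p4 * (0:ℝ) ^ 4 + p5 * (0:ℝ) ^ 5 = 0
    ring
  have h1 : (fun c : ℝ => p2 * c ^ 2 + p3 * c ^ 3 + p4 * c ^ 4 + p5 * c ^ 5) 1 = 0 := by
    show p2 * (1:ℝ) ^ 2 + p3 * (1:ℝ) ^ 3 + p4 * (1:ℝ) ^ 4 + p5 * (1:ℝ) ^ 5 = 0
    have h : p2 * (1:ℝ) ^ 2 + p3 * (1:ℝ) ^ 3 + p4 * (1:ℝ) ^ 4 + p5 * (1:ℝ) ^ 5
        = p2 + p3 + p4 + p5 := by ring
    exact h.trans hp
  have key := ibp2 R R1 R2 (fun c : ℝ => p2 * c ^ 2 + p3 * c ^ 3 + p4 * c ^ 4 + p5 * c ^ 5)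
    (fun c : ℝ => 2 * p2 * c + 3 * p3 * c ^ 2 + 4 * p4 * c ^ 3 + 5 * p5 * c ^ 4)
    (fun c : ℝ => 2 * p2 + 6 * p3 * c + 12 * p4 * c ^ 2 + 20 * p5 * c ^ 3) hR hR1 hR2
    (tw_momb_d1 p2 p3 p4 p5) (tw_momb_d2 p2 p3 p4 p5) (by fun_prop) h0 h1
  rw [key]
  ring

/-- Linearity: the integral of `(a + e z) (u + v z + w z^2) R`. -/
theorem tw_momb_lin (R : ℝ → ℝ) (hRc : Continuous R) (a e u v w : ℝ) :
    ∫ z in (0:ℝ)..1, (a + e * z) * (u + v * z + w * z ^ 2) * R z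
      = u * mA a e R + v * mM1 a e R + w * mM2 a e R := by
  have i0 : IntervalIntegrable (fun z : ℝ => (a + e * z) * R z) volume 0 1 :=
    (by fun_prop : Continuous fun z : ℝ => (a + e * z) * R z).intervalIntegrable _ _
  have i1 : IntervalIntegrable (fun z : ℝ => (a + e * z) * (z * R z)) volume 0 1 :=
    (by fun_prop : Continuous fun z : ℝ => (a + e * z) * (z * R z)).intervalIntegrable _ _
  have i2 : IntervalIntegrable (fun z : ℝ => (a + e * z) * (z ^ 2 * R z)) volume 0 1 :=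
    (by fun_prop : Continuous fun z : ℝ => (a + e * z) * (z ^ 2 * R z)).intervalIntegrable _ _
  unfold mA mM1 mM2
  rw [← intervalIntegral.integral_const_mul, ← intervalIntegral.integral_const_mul,
    ← intervalIntegral.integral_const_mul,
    ← intervalIntegral.integral_add (i0.const_mul _) (i1.const_mul _),
    ← intervalIntegral.integral_add ((i0.const_mul _).add (i1.const_mul _)) (i2.const_mul _)]
  refine intervalIntegral.integral_congr fun z _ => ?_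
  show (a + e * z) * (u + v * z + w * z ^ 2) * R z
    = u * ((a + e * z) * R z) + v * ((a + e * z) * (z * R z))
      + w * ((a + e * z) * (z ^ 2 * R z))
  ring

theorem be_eq (a e : ℝ) (R R1 R2 : ℝ → ℝ)
    (hR : ∀ x, HasDerivAt R (R1 x) x) (hR1 : ∀ x, HasDerivAt R1 (R2 x) x)
    (hR2 : Continuous R2) :
    6 * ((2 * e + 6 * a) * mM1 a e R - (e + 2 * a) * mA a e R) =
      Dl a e * R 1 + ∫ c in (0:ℝ)..1, (-(R2 c)) * kbe a e c := by
  have hRc : Continuous R := continuous_iff_continuousAt.mpr fun x => (hR x).continuousAt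
  have key := tw_momb_ibp R R1 R2 hR hR1 hR2 (3 * a * e + 6 * a ^ 2)
    ((e ^ 2 + 3 * a * e) - (3 * a * e + 6 * a ^ 2)) (-(e ^ 2 + 3 * a * e)) 0 (by ring)
  have hlin : ∫ z in (0:ℝ)..1, R z * (-(2 * (3 * a * e + 6 * a ^ 2)
        + 6 * ((e ^ 2 + 3 * a * e) - (3 * a * e + 6 * a ^ 2)) * z
        + 12 * (-(e ^ 2 + 3 * a * e)) * z ^ 2 + 20 * 0 * z ^ 3))
      = 6 * ((2 * e + 6 * a) * mM1 a e R - (e + 2 * a) * mA a e R) := by
    have h := tw_momb_lin R hRc a e (-(6 * (e + 2 * a))) (6 * (2 * e + 6 * a)) 0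
    have hcongr : ∫ z in (0:ℝ)..1, R z * (-(2 * (3 * a * e + 6 * a ^ 2)
          + 6 * ((e ^ 2 + 3 * a * e) - (3 * a * e + 6 * a ^ 2)) * z
          + 12 * (-(e ^ 2 + 3 * a * e)) * z ^ 2 + 20 * 0 * z ^ 3))
        = ∫ z in (0:ℝ)..1, (a + e * z)
          * (-(6 * (e + 2 * a)) + 6 * (2 * e + 6 * a) * z + 0 * z ^ 2) * R z := by
      refine intervalIntegral.integral_congr fun z _ => ?_
      show R z * (-(2 * (3 * a * e + 6 * a ^ 2)
          + 6 * ((e ^ 2 + 3 * a * e) - (3 * a * e + 6 * a ^ 2)) * z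
          + 12 * (-(e ^ 2 + 3 * a * e)) * z ^ 2 + 20 * 0 * z ^ 3))
        = (a + e * z) * (-(6 * (e + 2 * a)) + 6 * (2 * e + 6 * a) * z + 0 * z ^ 2) * R z
      ring
    rw [hcongr, h]
    ring
  have hker : ∫ z in (0:ℝ)..1, (-(R2 z)) * ((3 * a * e + 6 * a ^ 2) * z ^ 2
        + ((e ^ 2 + 3 * a * e) - (3 * a * e + 6 * a ^ 2)) * z ^ 3
        + (-(e ^ 2 + 3 * a * e)) * z ^ 4 + 0 * z ^ 5)
      = ∫ c in (0:ℝ)..1, (-(R2 c)) * kbe a e c := by
    refine intervalIntegral.integral_congr fun z _ => ?_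
    show (-(R2 z)) * ((3 * a * e + 6 * a ^ 2) * z ^ 2
        + ((e ^ 2 + 3 * a * e) - (3 * a * e + 6 * a ^ 2)) * z ^ 3
        + (-(e ^ 2 + 3 * a * e)) * z ^ 4 + 0 * z ^ 5) = (-(R2 z)) * kbe a e z
    unfold kbe
    ring
  rw [← hlin, key, hker]
  unfold Dl
  ring

theorem l_eq (a e : ℝ) (R R1 R2 : ℝ → ℝ)
    (hR : ∀ x, HasDerivAt R (R1 x) x) (hR1 : ∀ x, HasDerivAt R1 (R2 x) x)
    (hR2 : Continuous R2) :
    Lf a e R = ∫ c in (0:ℝ)..1, (-(R2 c)) * kl a e c := by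
  have hRc : Continuous R := continuous_iff_continuousAt.mpr fun x => (hR x).continuousAt
  have key := tw_momb_ibp R R1 R2 hR hR1 hR2
    ((3 * a * e ^ 2 + 12 * a ^ 2 * e + 10 * a ^ 3) / 20)
    ((e * Dl a e - 2 * (3 * a * e ^ 2 + 12 * a ^ 2 * e + 10 * a ^ 3)) / 20)
    (((3 * a * e ^ 2 + 12 * a ^ 2 * e + 10 * a ^ 3) - 2 * (e * Dl a e)) / 20)
    (e * Dl a e / 20) (by ring)
  have hlin : ∫ z in (0:ℝ)..1, R z * (-(2 * ((3 * a * e ^ 2 + 12 * a ^ 2 * e + 10 * a ^ 3) / 20)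
        + 6 * ((e * Dl a e - 2 * (3 * a * e ^ 2 + 12 * a ^ 2 * e + 10 * a ^ 3)) / 20) * z
        + 12 * (((3 * a * e ^ 2 + 12 * a ^ 2 * e + 10 * a ^ 3) - 2 * (e * Dl a e)) / 20) * z ^ 2
        + 20 * (e * Dl a e / 20) * z ^ 3))
      = Lf a e R := by
    have h := tw_momb_lin R hRc a e (-((3 * e ^ 2 + 12 * a * e + 10 * a ^ 2) / 10))
      ((6 * e ^ 2 + 32 * a * e + 30 * a ^ 2) / 5) (-(Dl a e))
    have hcongr : ∫ z in (0:ℝ)..1, R z
          * (-(2 * ((3 * a * e ^ 2 + 12 * a ^ 2 * e + 10 * a ^ 3) / 20)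
          + 6 * ((e * Dl a e - 2 * (3 * a * e ^ 2 + 12 * a ^ 2 * e + 10 * a ^ 3)) / 20) * z
          + 12 * (((3 * a * e ^ 2 + 12 * a ^ 2 * e + 10 * a ^ 3) - 2 * (e * Dl a e)) / 20)
            * z ^ 2
          + 20 * (e * Dl a e / 20) * z ^ 3))
        = ∫ z in (0:ℝ)..1, (a + e * z)
          * (-((3 * e ^ 2 + 12 * a * e + 10 * a ^ 2) / 10)
            + (6 * e ^ 2 + 32 * a * e + 30 * a ^ 2) / 5 * z + (-(Dl a e)) * z ^ 2) * R z := by
      refine intervalIntegral.integral_congr fun z _ => ?_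
      show R z * (-(2 * ((3 * a * e ^ 2 + 12 * a ^ 2 * e + 10 * a ^ 3) / 20)
          + 6 * ((e * Dl a e - 2 * (3 * a * e ^ 2 + 12 * a ^ 2 * e + 10 * a ^ 3)) / 20) * z
          + 12 * (((3 * a * e ^ 2 + 12 * a ^ 2 * e + 10 * a ^ 3) - 2 * (e * Dl a e)) / 20)
            * z ^ 2
          + 20 * (e * Dl a e / 20) * z ^ 3))
        = (a + e * z) * (-((3 * e ^ 2 + 12 * a * e + 10 * a ^ 2) / 10)
            + (6 * e ^ 2 + 32 * a * e + 30 * a ^ 2) / 5 * z + (-(Dl a e)) * z ^ 2) * R z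
      unfold Dl
      ring
    rw [hcongr, h]
    unfold Lf
    ring
  have hker : ∫ z in (0:ℝ)..1, (-(R2 z))
        * ((3 * a * e ^ 2 + 12 * a ^ 2 * e + 10 * a ^ 3) / 20 * z ^ 2
        + (e * Dl a e - 2 * (3 * a * e ^ 2 + 12 * a ^ 2 * e + 10 * a ^ 3)) / 20 * z ^ 3
        + ((3 * a * e ^ 2 + 12 * a ^ 2 * e + 10 * a ^ 3) - 2 * (e * Dl a e)) / 20 * z ^ 4
        + e * Dl a e / 20 * z ^ 5)
      = ∫ c in (0:ℝ)..1, (-(R2 c)) * kl a e c := by
    refine intervalIntegral.integral_congr fun z _ => ?_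
    show (-(R2 z)) * ((3 * a * e ^ 2 + 12 * a ^ 2 * e + 10 * a ^ 3) / 20 * z ^ 2
        + (e * Dl a e - 2 * (3 * a * e ^ 2 + 12 * a ^ 2 * e + 10 * a ^ 3)) / 20 * z ^ 3
        + ((3 * a * e ^ 2 + 12 * a ^ 2 * e + 10 * a ^ 3) - 2 * (e * Dl a e)) / 20 * z ^ 4
        + e * Dl a e / 20 * z ^ 5) = (-(R2 z)) * kl a e z
    unfold kl
    ring
  rw [← hlin, key, hker]
  ring

-- section PROJ-A (helper57)
/-! ### PROJ-A -/

/-- Integral over `[0,1]` of a cubic polynomial. -/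
theorem tw_proja_poly (c0 c1 c2 c3 : ℝ) :
    ∫ z in (0:ℝ)..1, (c0 + c1 * z + c2 * z ^ 2 + c3 * z ^ 3)
      = c0 + c1 / 2 + c2 / 3 + c3 / 4 := by
  have hd : ∀ t ∈ Set.uIcc (0:ℝ) 1,
      HasDerivAt (fun t : ℝ => c0 * t + c1 * t ^ 2 / 2 + c2 * t ^ 3 / 3 + c3 * t ^ 4 / 4)
        (c0 + c1 * t + c2 * t ^ 2 + c3 * t ^ 3) t := by
    intro t _
    have h1 : HasDerivAt (fun t : ℝ => c0 * t) c0 t := by
      have := (hasDerivAt_id t).const_mul c0
      exact this.congr_deriv (mul_one c0)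
    have h2 : HasDerivAt (fun t : ℝ => c1 * t ^ 2 / 2) (c1 * t) t := by
      have := ((hasDerivAt_pow 2 t).const_mul c1).div_const 2
      exact this.congr_deriv (by norm_num; ring)
    have h3 : HasDerivAt (fun t : ℝ => c2 * t ^ 3 / 3) (c2 * t ^ 2) t := by
      have := ((hasDerivAt_pow 3 t).const_mul c2).div_const 3
      exact this.congr_deriv (by norm_num; ring)
    have h4 : HasDerivAt (fun t : ℝ => c3 * t ^ 4 / 4) (c3 * t ^ 3) t := by
      have := ((hasDerivAt_pow 4 t).const_mul c3).div_const 4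
      exact this.congr_deriv (by norm_num; ring)
    exact ((h1.add h2).add h3).add h4
  rw [intervalIntegral.integral_eq_sub_of_hasDerivAt hd
    (Continuous.intervalIntegrable (by fun_prop) _ _)]
  ring

theorem tw_proja_int0 (a e : ℝ) (R : ℝ → ℝ) (hR : Continuous R) (p q : ℝ) :
    ∫ z in (0:ℝ)..1, (a + e * z) * (R z - (p * (1 - z) + q * z))
      = mA a e R - (a * p + (a * (q - p) + e * p) / 2 + e * (q - p) / 3 + 0 / 4) := by
  have h1 : IntervalIntegrable (fun z : ℝ => (a + e * z) * R z) MeasureTheory.volume 0 1 :=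
    (by fun_prop : Continuous fun z : ℝ => (a + e * z) * R z).intervalIntegrable 0 1
  have h2 : IntervalIntegrable
      (fun z : ℝ => a * p + (a * (q - p) + e * p) * z + e * (q - p) * z ^ 2 + 0 * z ^ 3)
      MeasureTheory.volume 0 1 :=
    (by fun_prop : Continuous fun z : ℝ =>
      a * p + (a * (q - p) + e * p) * z + e * (q - p) * z ^ 2 + 0 * z ^ 3).intervalIntegrable 0 1
  have e' : (fun z : ℝ => (a + e * z) * (R z - (p * (1 - z) + q * z)))
      = fun z => (a + e * z) * R z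
          - (a * p + (a * (q - p) + e * p) * z + e * (q - p) * z ^ 2 + 0 * z ^ 3) := by
    funext z
    ring
  rw [e', intervalIntegral.integral_sub h1 h2, tw_proja_poly]
  rfl

theorem tw_proja_int1 (a e : ℝ) (R : ℝ → ℝ) (hR : Continuous R) (p q : ℝ) :
    ∫ z in (0:ℝ)..1, z * ((a + e * z) * (R z - (p * (1 - z) + q * z)))
      = mM1 a e R - (0 + a * p / 2 + (a * (q - p) + e * p) / 3 + e * (q - p) / 4) := by
  have h1 : IntervalIntegrable (fun z : ℝ => (a + e * z) * (z * R z))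
      MeasureTheory.volume 0 1 :=
    (by fun_prop : Continuous fun z : ℝ => (a + e * z) * (z * R z)).intervalIntegrable 0 1
  have h2 : IntervalIntegrable
      (fun z : ℝ => 0 + a * p * z + (a * (q - p) + e * p) * z ^ 2 + e * (q - p) * z ^ 3)
      MeasureTheory.volume 0 1 :=
    (by fun_prop : Continuous fun z : ℝ =>
      0 + a * p * z + (a * (q - p) + e * p) * z ^ 2 + e * (q - p) * z ^ 3).intervalIntegrable 0 1
  have e' : (fun z : ℝ => z * ((a + e * z) * (R z - (p * (1 - z) + q * z))))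
      = fun z => (a + e * z) * (z * R z)
          - (0 + a * p * z + (a * (q - p) + e * p) * z ^ 2 + e * (q - p) * z ^ 3) := by
    funext z
    ring
  rw [e', intervalIntegral.integral_sub h1 h2, tw_proja_poly]
  rfl

theorem psi_orth0 (a e : ℝ) (ha : 0 ≤ a) (he : 0 ≤ e) (hae : 0 < a + e)
    (R : ℝ → ℝ) (hR : Continuous R) :
    ∫ z in (0:ℝ)..1, (a + e * z) * psi a e R z = 0 := by
  have hD : Dl a e ≠ 0 := (Dl_pos a e ha he hae).ne'
  have hal : Dl a e * al a e R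
      = 6 * ((3 * e + 4 * a) * mA a e R - (4 * e + 6 * a) * mM1 a e R) := by
    unfold al
    field_simp
  have hbe : Dl a e * be a e R
      = 6 * ((2 * e + 6 * a) * mM1 a e R - (e + 2 * a) * mA a e R) := by
    unfold be
    field_simp
  have h : ∫ z in (0:ℝ)..1, (a + e * z) * psi a e R z
      = mA a e R - (a * al a e R + (a * (be a e R - al a e R) + e * al a e R) / 2
          + e * (be a e R - al a e R) / 3 + 0 / 4) :=
    tw_proja_int0 a e R hR (al a e R) (be a e R)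
  rw [h]
  have key : Dl a e * (mA a e R - (a * al a e R
      + (a * (be a e R - al a e R) + e * al a e R) / 2
      + e * (be a e R - al a e R) / 3 + 0 / 4)) = 0 := by
    unfold Dl at hal hbe ⊢
    linear_combination (-(e + 3 * a) / 6) * hal + (-(2 * e + 3 * a) / 6) * hbe
  exact (mul_eq_zero.mp key).resolve_left hD

theorem psi_orth1 (a e : ℝ) (ha : 0 ≤ a) (he : 0 ≤ e) (hae : 0 < a + e)
    (R : ℝ → ℝ) (hR : Continuous R) :
    ∫ z in (0:ℝ)..1, z * ((a + e * z) * psi a e R z) = 0 := by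
  have hD : Dl a e ≠ 0 := (Dl_pos a e ha he hae).ne'
  have hal : Dl a e * al a e R
      = 6 * ((3 * e + 4 * a) * mA a e R - (4 * e + 6 * a) * mM1 a e R) := by
    unfold al
    field_simp
  have hbe : Dl a e * be a e R
      = 6 * ((2 * e + 6 * a) * mM1 a e R - (e + 2 * a) * mA a e R) := by
    unfold be
    field_simp
  have h : ∫ z in (0:ℝ)..1, z * ((a + e * z) * psi a e R z)
      = mM1 a e R - (0 + a * al a e R / 2 + (a * (be a e R - al a e R) + e * al a e R) / 3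
          + e * (be a e R - al a e R) / 4) :=
    tw_proja_int1 a e R hR (al a e R) (be a e R)
  rw [h]
  have key : Dl a e * (mM1 a e R - (0 + a * al a e R / 2
      + (a * (be a e R - al a e R) + e * al a e R) / 3
      + e * (be a e R - al a e R) / 4)) = 0 := by
    unfold Dl at hal hbe ⊢
    linear_combination (-(e + 2 * a) / 12) * hal + (-(3 * e + 4 * a) / 12) * hbe
  exact (mul_eq_zero.mp key).resolve_left hD

-- section PROJ-B (helper49)
/-! ### PROJ-B -/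

/-- Pythagoras for the weight `(a + e z) dz` on `[0,1]`: if `R - P` is orthogonal to `1` and
to `z`, where `P z = p * (1 - z) + q * z`, then `‖R - P‖² = ⟨R - P, R⟩` and
`‖R‖² = ⟨P, R⟩ + ‖R - P‖²`. -/
theorem tw_projb_aux (a e : ℝ) (R : ℝ → ℝ) (hR : Continuous R) (p q : ℝ)
    (h0 : ∫ z in (0:ℝ)..1, (a + e * z) * (R z - (p * (1 - z) + q * z)) = 0)
    (h1 : ∫ z in (0:ℝ)..1, z * ((a + e * z) * (R z - (p * (1 - z) + q * z))) = 0) :
    (∫ z in (0:ℝ)..1, (a + e * z) * (R z - (p * (1 - z) + q * z)) ^ 2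
        = ∫ z in (0:ℝ)..1, (a + e * z) * (R z - (p * (1 - z) + q * z)) * R z) ∧
    (∫ z in (0:ℝ)..1, (a + e * z) * (R z) ^ 2
        = p * ((∫ z in (0:ℝ)..1, (a + e * z) * R z)
              - ∫ z in (0:ℝ)..1, (a + e * z) * (z * R z))
          + q * (∫ z in (0:ℝ)..1, (a + e * z) * (z * R z))
          + ∫ z in (0:ℝ)..1, (a + e * z) * (R z - (p * (1 - z) + q * z)) ^ 2) := by
  have i0 : IntervalIntegrable (fun z : ℝ => (a + e * z) * (R z - (p * (1 - z) + q * z)))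
      volume 0 1 := Continuous.intervalIntegrable (by fun_prop) _ _
  have i1 : IntervalIntegrable
      (fun z : ℝ => z * ((a + e * z) * (R z - (p * (1 - z) + q * z))))
      volume 0 1 := Continuous.intervalIntegrable (by fun_prop) _ _
  have iR : IntervalIntegrable
      (fun z : ℝ => (a + e * z) * (R z - (p * (1 - z) + q * z)) * R z)
      volume 0 1 := Continuous.intervalIntegrable (by fun_prop) _ _
  have iP : IntervalIntegrable
      (fun z : ℝ => (a + e * z) * (R z - (p * (1 - z) + q * z)) * (p * (1 - z) + q * z))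
      volume 0 1 := Continuous.intervalIntegrable (by fun_prop) _ _
  have iA : IntervalIntegrable (fun z : ℝ => (a + e * z) * R z)
      volume 0 1 := Continuous.intervalIntegrable (by fun_prop) _ _
  have iM : IntervalIntegrable (fun z : ℝ => (a + e * z) * (z * R z))
      volume 0 1 := Continuous.intervalIntegrable (by fun_prop) _ _
  have key0 : ∫ z in (0:ℝ)..1,
      (a + e * z) * (R z - (p * (1 - z) + q * z)) * (p * (1 - z) + q * z) = 0 := by
    have e1 : (fun z : ℝ =>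
        (a + e * z) * (R z - (p * (1 - z) + q * z)) * (p * (1 - z) + q * z))
        = fun z : ℝ => p * ((a + e * z) * (R z - (p * (1 - z) + q * z)))
            + (q - p) * (z * ((a + e * z) * (R z - (p * (1 - z) + q * z)))) := by
      funext z
      ring
    rw [e1, intervalIntegral.integral_add (i0.const_mul p) (i1.const_mul (q - p)),
      intervalIntegral.integral_const_mul, intervalIntegral.integral_const_mul, h0, h1]
    ring
  have hA : ∫ z in (0:ℝ)..1, (a + e * z) * (R z - (p * (1 - z) + q * z)) ^ 2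
      = ∫ z in (0:ℝ)..1, (a + e * z) * (R z - (p * (1 - z) + q * z)) * R z := by
    have e1 : (fun z : ℝ => (a + e * z) * (R z - (p * (1 - z) + q * z)) ^ 2)
        = fun z : ℝ => (a + e * z) * (R z - (p * (1 - z) + q * z)) * R z
            - (a + e * z) * (R z - (p * (1 - z) + q * z)) * (p * (1 - z) + q * z) := by
      funext z
      ring
    rw [e1, intervalIntegral.integral_sub iR iP, key0, sub_zero]
  refine ⟨hA, ?_⟩
  have e1 : (fun z : ℝ => (a + e * z) * (R z) ^ 2)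
      = fun z : ℝ => (p * ((a + e * z) * R z) + (q - p) * ((a + e * z) * (z * R z)))
          + (a + e * z) * (R z - (p * (1 - z) + q * z)) * R z := by
    funext z
    ring
  rw [e1, intervalIntegral.integral_add ((iA.const_mul p).add (iM.const_mul (q - p))) iR,
    intervalIntegral.integral_add (iA.const_mul p) (iM.const_mul (q - p)),
    intervalIntegral.integral_const_mul, intervalIntegral.integral_const_mul, hA]
  ring

/-- Pythagoras: `S = Psi0 + ‖psi‖²` with `Psi0 = al (A - M1) + be M1`. -/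
theorem S_split (a e : ℝ) (ha : 0 ≤ a) (he : 0 ≤ e) (hae : 0 < a + e)
    (R : ℝ → ℝ) (hR : Continuous R) :
    mS a e R = al a e R * (mA a e R - mM1 a e R) + be a e R * mM1 a e R
        + ∫ z in (0:ℝ)..1, (a + e * z) * (psi a e R z) ^ 2 :=
  (tw_projb_aux a e R hR (al a e R) (be a e R) (psi_orth0 a e ha he hae R hR)
    (psi_orth1 a e ha he hae R hR)).2

/-- `‖psi‖² = ⟨psi, R⟩`. -/
theorem Spsi_eq (a e : ℝ) (ha : 0 ≤ a) (he : 0 ≤ e) (hae : 0 < a + e)
    (R : ℝ → ℝ) (hR : Continuous R) :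
    ∫ z in (0:ℝ)..1, (a + e * z) * (psi a e R z) ^ 2 =
      ∫ z in (0:ℝ)..1, (a + e * z) * psi a e R z * R z :=
  (tw_projb_aux a e R hR (al a e R) (be a e R) (psi_orth0 a e ha he hae R hR)
    (psi_orth1 a e ha he hae R hR)).1

-- section WIBP (helper5)
/-! ### WIBP: the second antiderivative `W` of `φ` (used with `φ = (a + e z) psi`) -/

theorem W_ibp (R R1 R2 φ : ℝ → ℝ)
    (hR : ∀ x, HasDerivAt R (R1 x) x) (hR1 : ∀ x, HasDerivAt R1 (R2 x) x)
    (hR2 : Continuous R2) (hφ : Continuous φ)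
    (h0 : ∫ z in (0:ℝ)..1, φ z = 0) (h1 : ∫ z in (0:ℝ)..1, z * φ z = 0) :
    ∫ z in (0:ℝ)..1, φ z * R z =
      -(∫ c in (0:ℝ)..1, (-(R2 c)) * (∫ z in (0:ℝ)..c, (c - z) * φ z)) := by
  have hf1 : Continuous fun z : ℝ => z * φ z := continuous_id.mul hφ
  have hI0 : ∀ c : ℝ, HasDerivAt (fun u => ∫ z in (0:ℝ)..u, φ z) (φ c) c := fun c =>
    intervalIntegral.integral_hasDerivAt_right (hφ.intervalIntegrable _ _)
      (hφ.stronglyMeasurableAtFilter _ _) hφ.continuousAt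
  have hI1 : ∀ c : ℝ, HasDerivAt (fun u => ∫ z in (0:ℝ)..u, z * φ z) (c * φ c) c :=
    fun c => intervalIntegral.integral_hasDerivAt_right (hf1.intervalIntegrable _ _)
      (hf1.stronglyMeasurableAtFilter _ _) hf1.continuousAt
  have hWeq : (fun c : ℝ => ∫ z in (0:ℝ)..c, (c - z) * φ z)
      = fun c => c * (∫ z in (0:ℝ)..c, φ z) - ∫ z in (0:ℝ)..c, z * φ z := by
    funext c
    have i1 : IntervalIntegrable (fun z : ℝ => c * φ z) volume 0 c :=
      (continuous_const.mul hφ : Continuous fun z : ℝ => c * φ z).intervalIntegrable _ _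
    have i2 : IntervalIntegrable (fun z : ℝ => z * φ z) volume 0 c :=
      hf1.intervalIntegrable _ _
    rw [← intervalIntegral.integral_const_mul, ← intervalIntegral.integral_sub i1 i2]
    apply intervalIntegral.integral_congr
    intro z _
    ring
  have hW : ∀ c : ℝ, HasDerivAt (fun c : ℝ => ∫ z in (0:ℝ)..c, (c - z) * φ z)
      (∫ z in (0:ℝ)..c, φ z) c := by
    intro c
    rw [hWeq]
    have h : HasDerivAt
        (fun c : ℝ => c * (∫ z in (0:ℝ)..c, φ z) - ∫ z in (0:ℝ)..c, z * φ z)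
        (1 * (∫ z in (0:ℝ)..c, φ z) + c * φ c - c * φ c) c :=
      ((hasDerivAt_id' c).mul (hI0 c)).sub (hI1 c)
    have e : 1 * (∫ z in (0:ℝ)..c, φ z) + c * φ c - c * φ c
        = ∫ z in (0:ℝ)..c, φ z := by ring
    rw [e] at h
    exact h
  have hW0 : (fun c : ℝ => ∫ z in (0:ℝ)..c, (c - z) * φ z) 0 = 0 :=
    intervalIntegral.integral_same
  have hW1 : (fun c : ℝ => ∫ z in (0:ℝ)..c, (c - z) * φ z) 1 = 0 := by
    rw [hWeq]
    simp only
    rw [h0, h1]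
    ring
  have key := ibp2 R R1 R2 (fun c : ℝ => ∫ z in (0:ℝ)..c, (c - z) * φ z)
    (fun c => ∫ z in (0:ℝ)..c, φ z) (fun c => φ c) hR hR1 hR2 hW hI0 hφ hW0 hW1
  simp only [intervalIntegral.integral_same, mul_zero, h0, sub_zero, zero_add] at key
  rw [← key, ← intervalIntegral.integral_neg]
  apply intervalIntegral.integral_congr
  intro z _
  simp only
  ring

-- section WPAIR (helper38)
/-! ### WPAIR -/

theorem tw_wpair_gk_le (c z : ℝ) (hz : z ≤ c) : gk c z = z * (1 - c) := by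
  unfold gk
  exact min_eq_left (by nlinarith)

theorem tw_wpair_gk_ge (c z : ℝ) (hz : c ≤ z) : gk c z = c * (1 - z) := by
  unfold gk
  exact min_eq_right (by nlinarith)

theorem tw_wpair_pk_affine (a e c z : ℝ) :
    pk a e c z = kal a e c / Dl a e + (kbe a e c / Dl a e - kal a e c / Dl a e) * z := by
  unfold pk
  ring

theorem W_pair (a e : ℝ) (φ : ℝ → ℝ) (hφ : Continuous φ)
    (h0 : ∫ z in (0:ℝ)..1, φ z = 0) (h1 : ∫ z in (0:ℝ)..1, z * φ z = 0)
    (c : ℝ) (hc : c ∈ Icc (0:ℝ) 1) :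
    -(∫ z in (0:ℝ)..c, (c - z) * φ z) =
      ∫ z in (0:ℝ)..1, (gk c z - pk a e c z) * φ z := by
  obtain ⟨hc0, hc1⟩ := hc
  have hf1 : Continuous fun z : ℝ => z * φ z := by fun_prop
  have hi0 : ∀ s t : ℝ, IntervalIntegrable φ volume s t :=
    fun s t => hφ.intervalIntegrable s t
  have hi1 : ∀ s t : ℝ, IntervalIntegrable (fun z : ℝ => z * φ z) volume s t :=
    fun s t => hf1.intervalIntegrable s t
  have hcont : Continuous fun z : ℝ => (gk c z - pk a e c z) * φ z := by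
    have hgk : Continuous fun z : ℝ => gk c z := by
      unfold gk
      fun_prop
    have hpk : Continuous fun z : ℝ => pk a e c z := by
      have e1 : (fun z : ℝ => pk a e c z) = fun z : ℝ =>
          kal a e c / Dl a e + (kbe a e c / Dl a e - kal a e c / Dl a e) * z := by
        funext z
        exact tw_wpair_pk_affine a e c z
      rw [e1]
      fun_prop
    exact (hgk.sub hpk).mul hφ
  have hsplit := integral_add_adjacent_intervals (hcont.intervalIntegrable (μ := volume) 0 c)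
    (hcont.intervalIntegrable (μ := volume) c 1)
  have hs0 := integral_add_adjacent_intervals (hi0 0 c) (hi0 c 1)
  have hs1 := integral_add_adjacent_intervals (hi1 0 c) (hi1 c 1)
  rw [h0] at hs0
  rw [h1] at hs1
  have hL : ∫ z in (0:ℝ)..c, (gk c z - pk a e c z) * φ z =
      (1 - c - (kbe a e c / Dl a e - kal a e c / Dl a e)) * (∫ z in (0:ℝ)..c, z * φ z)
        - (kal a e c / Dl a e) * (∫ z in (0:ℝ)..c, φ z) := by
    rw [← intervalIntegral.integral_const_mul, ← intervalIntegral.integral_const_mul,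
      ← intervalIntegral.integral_sub ((hi1 0 c).const_mul _) ((hi0 0 c).const_mul _)]
    refine intervalIntegral.integral_congr (fun z hz => ?_)
    rw [uIcc_of_le hc0] at hz
    show (gk c z - pk a e c z) * φ z = _
    rw [tw_wpair_gk_le c z hz.2, tw_wpair_pk_affine]
    ring
  have hR : ∫ z in c..1, (gk c z - pk a e c z) * φ z =
      (c - kal a e c / Dl a e) * (∫ z in c..1, φ z)
        - (c + (kbe a e c / Dl a e - kal a e c / Dl a e)) * (∫ z in c..1, z * φ z) := by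
    rw [← intervalIntegral.integral_const_mul, ← intervalIntegral.integral_const_mul,
      ← intervalIntegral.integral_sub ((hi0 c 1).const_mul _) ((hi1 c 1).const_mul _)]
    refine intervalIntegral.integral_congr (fun z hz => ?_)
    rw [uIcc_of_le hc1] at hz
    show (gk c z - pk a e c z) * φ z = _
    rw [tw_wpair_gk_ge c z hz.1, tw_wpair_pk_affine]
    ring
  have hLHS : ∫ z in (0:ℝ)..c, (c - z) * φ z =
      c * (∫ z in (0:ℝ)..c, φ z) - ∫ z in (0:ℝ)..c, z * φ z := by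
    rw [← intervalIntegral.integral_const_mul,
      ← intervalIntegral.integral_sub ((hi0 0 c).const_mul _) (hi1 0 c)]
    refine intervalIntegral.integral_congr (fun z _ => ?_)
    ring
  have e0 : ∫ z in c..1, φ z = -(∫ z in (0:ℝ)..c, φ z) := by linarith
  have e1 : ∫ z in c..1, z * φ z = -(∫ z in (0:ℝ)..c, z * φ z) := by linarith
  rw [hLHS, ← hsplit, hL, hR, e0, e1]
  ring

-- section GNORM (helper89)
/-! ### GNORM -/

theorem tw_gnorm_int_cubic (p0 p1 p2 p3 x y : ℝ) :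
    ∫ z in x..y, (p0 + p1 * z + p2 * z ^ 2 + p3 * z ^ 3) =
      p0 * (y - x) + p1 * (y ^ 2 - x ^ 2) / 2 + p2 * (y ^ 3 - x ^ 3) / 3
        + p3 * (y ^ 4 - x ^ 4) / 4 := by
  have hd : ∀ t ∈ Set.uIcc x y,
      HasDerivAt (fun t : ℝ => p0 * t + p1 * t ^ 2 / 2 + p2 * t ^ 3 / 3 + p3 * t ^ 4 / 4)
        (p0 + p1 * t + p2 * t ^ 2 + p3 * t ^ 3) t := by
    intro t _
    have h1 : HasDerivAt (fun t : ℝ => p0 * t) p0 t := by
      simpa using (hasDerivAt_id t).const_mul p0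
    have h2 : HasDerivAt (fun t : ℝ => p1 * t ^ 2 / 2) (p1 * t) t := by
      have h := ((hasDerivAt_pow 2 t).const_mul p1).div_const 2
      exact h.congr_deriv (by norm_num; ring)
    have h3 : HasDerivAt (fun t : ℝ => p2 * t ^ 3 / 3) (p2 * t ^ 2) t := by
      have h := ((hasDerivAt_pow 3 t).const_mul p2).div_const 3
      exact h.congr_deriv (by norm_num; ring)
    have h4 : HasDerivAt (fun t : ℝ => p3 * t ^ 4 / 4) (p3 * t ^ 3) t := by
      have h := ((hasDerivAt_pow 4 t).const_mul p3).div_const 4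
      exact h.congr_deriv (by norm_num; ring)
    exact ((h1.add h2).add h3).add h4
  rw [intervalIntegral.integral_eq_sub_of_hasDerivAt hd
    (Continuous.intervalIntegrable (by fun_prop) _ _)]
  ring

theorem tw_gnorm_uv (a e c u v : ℝ) (hc0 : 0 ≤ c) (hc1 : c ≤ 1) :
    ∫ z in (0:ℝ)..1, (a + e * z) * (gk c z - (u * (1 - z) + v * z)) ^ 2 =
      (a * u ^ 2 * c + (e * u ^ 2 - 2 * a * u * (1 - c + u - v)) * c ^ 2 / 2
        + (a * (1 - c + u - v) ^ 2 - 2 * e * u * (1 - c + u - v)) * c ^ 3 / 3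
        + e * (1 - c + u - v) ^ 2 * c ^ 4 / 4)
      + (a * (c - u) ^ 2 * (1 - c)
        + (e * (c - u) ^ 2 + 2 * a * (c - u) * (u - v - c)) * (1 - c ^ 2) / 2
        + (a * (u - v - c) ^ 2 + 2 * e * (c - u) * (u - v - c)) * (1 - c ^ 3) / 3
        + e * (u - v - c) ^ 2 * (1 - c ^ 4) / 4) := by
  have hcont : Continuous
      (fun z : ℝ => (a + e * z) * (gk c z - (u * (1 - z) + v * z)) ^ 2) := by
    unfold gk
    fun_prop
  rw [← intervalIntegral.integral_add_adjacent_intervals (hcont.intervalIntegrable 0 c)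
    (hcont.intervalIntegrable c 1)]
  have h1 : ∫ z in (0:ℝ)..c, (a + e * z) * (gk c z - (u * (1 - z) + v * z)) ^ 2
      = ∫ z in (0:ℝ)..c, (a * u ^ 2 + (e * u ^ 2 - 2 * a * u * (1 - c + u - v)) * z
          + (a * (1 - c + u - v) ^ 2 - 2 * e * u * (1 - c + u - v)) * z ^ 2
          + e * (1 - c + u - v) ^ 2 * z ^ 3) := by
    apply intervalIntegral.integral_congr
    intro z hz
    rw [uIcc_of_le hc0] at hz
    have hg : gk c z = z * (1 - c) := by
      unfold gk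
      apply min_eq_left
      nlinarith [hz.1, hz.2]
    dsimp only
    rw [hg]
    ring
  have h2 : ∫ z in c..(1:ℝ), (a + e * z) * (gk c z - (u * (1 - z) + v * z)) ^ 2
      = ∫ z in c..(1:ℝ), (a * (c - u) ^ 2
          + (e * (c - u) ^ 2 + 2 * a * (c - u) * (u - v - c)) * z
          + (a * (u - v - c) ^ 2 + 2 * e * (c - u) * (u - v - c)) * z ^ 2
          + e * (u - v - c) ^ 2 * z ^ 3) := by
    apply intervalIntegral.integral_congr
    intro z hz
    rw [uIcc_of_le hc1] at hz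
    have hg : gk c z = c * (1 - z) := by
      unfold gk
      apply min_eq_right
      nlinarith [hz.1, hz.2]
    dsimp only
    rw [hg]
    ring
  rw [h1, h2, tw_gnorm_int_cubic, tw_gnorm_int_cubic]
  ring

theorem tw_gnorm_alg (a e c D u v : ℝ) (hD : D ≠ 0) (hDe : D = e ^ 2 + 6 * a * e + 6 * a ^ 2)
    (hu : u = c * (1 - c) ^ 2 * (D + (2 * e ^ 2 + 3 * a * e) * c) / D)
    (hv : v = c ^ 2 * (1 - c) * ((3 * a * e + 6 * a ^ 2) + (e ^ 2 + 3 * a * e) * c) / D) :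
    (a * u ^ 2 * c + (e * u ^ 2 - 2 * a * u * (1 - c + u - v)) * c ^ 2 / 2
        + (a * (1 - c + u - v) ^ 2 - 2 * e * u * (1 - c + u - v)) * c ^ 3 / 3
        + e * (1 - c + u - v) ^ 2 * c ^ 4 / 4)
      + (a * (c - u) ^ 2 * (1 - c)
        + (e * (c - u) ^ 2 + 2 * a * (c - u) * (u - v - c)) * (1 - c ^ 2) / 2
        + (a * (u - v - c) ^ 2 + 2 * e * (c - u) * (u - v - c)) * (1 - c ^ 3) / 3
        + e * (u - v - c) ^ 2 * (1 - c ^ 4) / 4)
      = c ^ 3 * (1 - c) ^ 3 * Nn a e c / (12 * D) := by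
  subst hu hv
  unfold Nn
  field_simp
  subst hDe
  ring

theorem gk_norm (a e : ℝ) (ha : 0 ≤ a) (he : 0 ≤ e) (hae : 0 < a + e)
    (c : ℝ) (hc : c ∈ Icc (0:ℝ) 1) :
    ∫ z in (0:ℝ)..1, (a + e * z) * (gk c z - pk a e c z) ^ 2 =
      c ^ 3 * (1 - c) ^ 3 * Nn a e c / (12 * Dl a e) := by
  obtain ⟨hc0, hc1⟩ := hc
  have hD : Dl a e ≠ 0 := (Dl_pos a e ha he hae).ne'
  have hpk : ∀ z : ℝ, pk a e c z = kal a e c / Dl a e * (1 - z) + kbe a e c / Dl a e * z := by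
    intro z
    unfold pk
    ring
  simp_rw [hpk]
  rw [tw_gnorm_uv a e c _ _ hc0 hc1]
  exact tw_gnorm_alg a e c (Dl a e) _ _ hD rfl rfl rfl

-- section DLE (helper59)
/-! ### DLE -/

theorem tw_dle_key (a e c D Q : ℝ) (hD : D = Dl a e) (hQ : Q = q1 a e * q2 a e)
    (hD0 : D ≠ 0) (hQ0 : Q ≠ 0) :
    40 / Q * (kl a e c * kA a e c) - c ^ 3 * (1 - c) ^ 3 * Nn a e c / (12 * D) =
      e * c ^ 3 * (1 - c) ^ 4 *
        ((4 * a * e ^ 4 + 32 * a ^ 2 * e ^ 3 + 80 * a ^ 3 * e ^ 2 + 96 * a ^ 4 * e + 48 * a ^ 5)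
          + (2 * e ^ 5 + 21 * a * e ^ 4 + 54 * a ^ 2 * e ^ 3 + 66 * a ^ 3 * e ^ 2
              + 36 * a ^ 4 * e) * c) / (12 * D * Q) := by
  unfold kl kA Nn
  rw [← hD]
  field_simp
  rw [hQ, hD]
  unfold Dl q1 q2
  ring

theorem D_le (a e : ℝ) (ha : 0 ≤ a) (he : 0 ≤ e) (hae : 0 < a + e)
    (c : ℝ) (hc : c ∈ Icc (0:ℝ) 1) :
    c ^ 3 * (1 - c) ^ 3 * Nn a e c / (12 * Dl a e) ≤
      40 / (q1 a e * q2 a e) * (kl a e c * kA a e c) := by
  have hD : 0 < Dl a e := Dl_pos a e ha he hae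
  have hQ : 0 < q1 a e * q2 a e := mul_pos (q1_pos a e ha he hae) (q2_pos a e ha he hae)
  obtain ⟨hc0, hc1⟩ := hc
  have h1c : 0 ≤ 1 - c := by linarith
  have key := tw_dle_key a e c (Dl a e) (q1 a e * q2 a e) rfl rfl hD.ne' hQ.ne'
  have hpos : 0 ≤ e * c ^ 3 * (1 - c) ^ 4 *
        ((4 * a * e ^ 4 + 32 * a ^ 2 * e ^ 3 + 80 * a ^ 3 * e ^ 2 + 96 * a ^ 4 * e + 48 * a ^ 5)
          + (2 * e ^ 5 + 21 * a * e ^ 4 + 54 * a ^ 2 * e ^ 3 + 66 * a ^ 3 * e ^ 2
              + 36 * a ^ 4 * e) * c) / (12 * Dl a e * (q1 a e * q2 a e)) := by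
    positivity
  linarith

-- section CS (helper41)
/-! ### CS: weighted Cauchy-Schwarz on `[0,1]` -/

theorem cs_weighted (a e : ℝ) (ha : 0 ≤ a) (he : 0 ≤ e)
    (u ψ : ℝ → ℝ) (hu : Continuous u) (hψ : Continuous ψ) :
    (∫ z in (0:ℝ)..1, (a + e * z) * (u z * ψ z)) ^ 2 ≤
      (∫ z in (0:ℝ)..1, (a + e * z) * (u z) ^ 2) *
        (∫ z in (0:ℝ)..1, (a + e * z) * (ψ z) ^ 2) := by
  have h1 : IntervalIntegrable (fun z => (a + e * z) * (u z) ^ 2) MeasureTheory.volume 0 1 :=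
    (by fun_prop : Continuous fun z => (a + e * z) * (u z) ^ 2).intervalIntegrable _ _
  have h2 : IntervalIntegrable (fun z => (a + e * z) * (u z * ψ z)) MeasureTheory.volume 0 1 :=
    (by fun_prop : Continuous fun z => (a + e * z) * (u z * ψ z)).intervalIntegrable _ _
  have h3 : IntervalIntegrable (fun z => (a + e * z) * (ψ z) ^ 2) MeasureTheory.volume 0 1 :=
    (by fun_prop : Continuous fun z => (a + e * z) * (ψ z) ^ 2).intervalIntegrable _ _
  have hquad : ∀ s : ℝ, 0 ≤ (∫ z in (0:ℝ)..1, (a + e * z) * (ψ z) ^ 2) * (s * s)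
      + (2 * ∫ z in (0:ℝ)..1, (a + e * z) * (u z * ψ z)) * s
      + ∫ z in (0:ℝ)..1, (a + e * z) * (u z) ^ 2 := by
    intro s
    have hnn : 0 ≤ ∫ z in (0:ℝ)..1, (a + e * z) * (u z + s * ψ z) ^ 2 := by
      apply intervalIntegral.integral_nonneg (by norm_num)
      intro z hz
      exact mul_nonneg (add_nonneg ha (mul_nonneg he hz.1)) (sq_nonneg _)
    have hexp : ∫ z in (0:ℝ)..1, (a + e * z) * (u z + s * ψ z) ^ 2
        = (∫ z in (0:ℝ)..1, (a + e * z) * (ψ z) ^ 2) * (s * s)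
          + (2 * ∫ z in (0:ℝ)..1, (a + e * z) * (u z * ψ z)) * s
          + ∫ z in (0:ℝ)..1, (a + e * z) * (u z) ^ 2 := by
      have hfun : (fun z => (a + e * z) * (u z + s * ψ z) ^ 2)
          = fun z => (s * s) * ((a + e * z) * (ψ z) ^ 2)
            + ((2 * s) * ((a + e * z) * (u z * ψ z)) + (a + e * z) * (u z) ^ 2) := by
        funext z
        ring
      rw [hfun, intervalIntegral.integral_add (h3.const_mul _) ((h2.const_mul _).add h1),
        intervalIntegral.integral_add (h2.const_mul _) h1,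
        intervalIntegral.integral_const_mul, intervalIntegral.integral_const_mul]
      ring
    rw [← hexp]
    exact hnn
  have hd := discrim_le_zero hquad
  unfold discrim at hd
  linarith [hd]

-- section WBND (helper92)
/-! ### WBND: pointwise bound of `W` -/

theorem tw_wbnd_cont (a e c : ℝ) : Continuous (fun z : ℝ => gk c z - pk a e c z) := by
  have h1 : Continuous (fun z : ℝ => gk c z) := by
    unfold gk
    exact (continuous_id.mul continuous_const).min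
      (continuous_const.mul (continuous_const.sub continuous_id))
  have h2 : Continuous (fun z : ℝ => pk a e c z) := by
    unfold pk
    fun_prop
  exact h1.sub h2

theorem tw_wbnd_alg (X Y J τ : ℝ) (hX : 0 ≤ X) (hY : 0 ≤ Y) (hτ : 0 < τ)
    (hJ : J ^ 2 ≤ X * Y) :
    |J| ≤ X / (2 * τ) + τ * Y / 2 := by
  have hx : 0 ≤ X / (2 * τ) := by positivity
  have hy : 0 ≤ τ * Y / 2 := by positivity
  have hxy : 4 * (X / (2 * τ)) * (τ * Y / 2) = X * Y := by
    field_simp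
    ring
  have hsq : J ^ 2 ≤ (X / (2 * τ) + τ * Y / 2) ^ 2 := by
    nlinarith [sq_nonneg (X / (2 * τ) - τ * Y / 2)]
  exact abs_le.mpr (abs_le_of_sq_le_sq' hsq (add_nonneg hx hy))

theorem W_bound (a e : ℝ) (ha : 0 ≤ a) (he : 0 ≤ e) (hae : 0 < a + e)
    (ψ : ℝ → ℝ) (hψ : Continuous ψ)
    (h0 : ∫ z in (0:ℝ)..1, (a + e * z) * ψ z = 0)
    (h1 : ∫ z in (0:ℝ)..1, z * ((a + e * z) * ψ z) = 0)
    (c : ℝ) (hc : c ∈ Icc (0:ℝ) 1) (τ : ℝ) (hτ : 0 < τ) :
    |∫ z in (0:ℝ)..c, (c - z) * ((a + e * z) * ψ z)| ≤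
      kA a e c / (2 * τ)
        + 20 * τ / (q1 a e * q2 a e) * kl a e c *
            (∫ z in (0:ℝ)..1, (a + e * z) * (ψ z) ^ 2) := by
  have hφ : Continuous (fun z : ℝ => (a + e * z) * ψ z) := by fun_prop
  have hpair : -(∫ z in (0:ℝ)..c, (c - z) * ((a + e * z) * ψ z)) =
      ∫ z in (0:ℝ)..1, (gk c z - pk a e c z) * ((a + e * z) * ψ z) :=
    W_pair a e (fun z : ℝ => (a + e * z) * ψ z) hφ h0 h1 c hc
  have hcs : (∫ z in (0:ℝ)..1, (a + e * z) * ((gk c z - pk a e c z) * ψ z)) ^ 2 ≤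
      (∫ z in (0:ℝ)..1, (a + e * z) * (gk c z - pk a e c z) ^ 2) *
        (∫ z in (0:ℝ)..1, (a + e * z) * (ψ z) ^ 2) :=
    cs_weighted a e ha he (fun z : ℝ => gk c z - pk a e c z) ψ (tw_wbnd_cont a e c) hψ
  have hnorm := gk_norm a e ha he hae c hc
  have hD := D_le a e ha he hae c hc
  have hS : 0 ≤ ∫ z in (0:ℝ)..1, (a + e * z) * (ψ z) ^ 2 := by
    apply intervalIntegral.integral_nonneg (by norm_num)
    intro z hz
    exact mul_nonneg (add_nonneg ha (mul_nonneg he hz.1)) (sq_nonneg _)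
  have hq : 0 < q1 a e * q2 a e := mul_pos (q1_pos a e ha he hae) (q2_pos a e ha he hae)
  have hkA := kA_nonneg a e ha he c hc
  have hkl := kl_nonneg a e ha he c hc
  have hrew : ∫ z in (0:ℝ)..1, (gk c z - pk a e c z) * ((a + e * z) * ψ z) =
      ∫ z in (0:ℝ)..1, (a + e * z) * ((gk c z - pk a e c z) * ψ z) := by
    apply intervalIntegral.integral_congr
    intro z _
    ring
  have hJ : (∫ z in (0:ℝ)..1, (a + e * z) * ((gk c z - pk a e c z) * ψ z)) ^ 2 ≤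
      kA a e c * (40 / (q1 a e * q2 a e) * kl a e c *
        (∫ z in (0:ℝ)..1, (a + e * z) * (ψ z) ^ 2)) := by
    have h1' : (∫ z in (0:ℝ)..1, (a + e * z) * ((gk c z - pk a e c z) * ψ z)) ^ 2 ≤
        (c ^ 3 * (1 - c) ^ 3 * Nn a e c / (12 * Dl a e)) *
          (∫ z in (0:ℝ)..1, (a + e * z) * (ψ z) ^ 2) := by
      rw [← hnorm]
      exact hcs
    have h2' : (c ^ 3 * (1 - c) ^ 3 * Nn a e c / (12 * Dl a e)) *
          (∫ z in (0:ℝ)..1, (a + e * z) * (ψ z) ^ 2) ≤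
        (40 / (q1 a e * q2 a e) * (kl a e c * kA a e c)) *
          (∫ z in (0:ℝ)..1, (a + e * z) * (ψ z) ^ 2) :=
      mul_le_mul_of_nonneg_right hD hS
    have h3' : (40 / (q1 a e * q2 a e) * (kl a e c * kA a e c)) *
          (∫ z in (0:ℝ)..1, (a + e * z) * (ψ z) ^ 2) =
        kA a e c * (40 / (q1 a e * q2 a e) * kl a e c *
          (∫ z in (0:ℝ)..1, (a + e * z) * (ψ z) ^ 2)) := by ring
    linarith
  have hY : 0 ≤ 40 / (q1 a e * q2 a e) * kl a e c *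
      (∫ z in (0:ℝ)..1, (a + e * z) * (ψ z) ^ 2) := by positivity
  have hfin := tw_wbnd_alg (kA a e c)
    (40 / (q1 a e * q2 a e) * kl a e c * (∫ z in (0:ℝ)..1, (a + e * z) * (ψ z) ^ 2))
    (∫ z in (0:ℝ)..1, (a + e * z) * ((gk c z - pk a e c z) * ψ z)) τ hkA hY hτ hJ
  have hgoal : τ * (40 / (q1 a e * q2 a e) * kl a e c *
        (∫ z in (0:ℝ)..1, (a + e * z) * (ψ z) ^ 2)) / 2 =
      20 * τ / (q1 a e * q2 a e) * kl a e c *
        (∫ z in (0:ℝ)..1, (a + e * z) * (ψ z) ^ 2) := by ring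
  rw [hgoal, ← hrew, ← hpair, abs_neg] at hfin
  exact hfin

-- section F4 (helper18)
/-! ### F4: the quadratic inequality -/

theorem tw_f4_psi_cont (a e : ℝ) (R : ℝ → ℝ) (hR : Continuous R) :
    Continuous (psi a e R) := by
  unfold psi
  fun_prop

theorem tw_f4_W_cont (φ : ℝ → ℝ) (hφ : Continuous φ) :
    Continuous (fun c : ℝ => ∫ z in (0:ℝ)..c, (c - z) * φ z) := by
  have e : (fun c : ℝ => ∫ z in (0:ℝ)..c, (c - z) * φ z)
      = fun c : ℝ => c * (∫ z in (0:ℝ)..c, φ z) - ∫ z in (0:ℝ)..c, z * φ z := by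
    funext c
    rw [← intervalIntegral.integral_const_mul, ← intervalIntegral.integral_sub]
    · apply intervalIntegral.integral_congr
      intro z _
      ring
    · exact (by fun_prop : Continuous fun z : ℝ => c * φ z).intervalIntegrable _ _
    · exact (by fun_prop : Continuous fun z : ℝ => z * φ z).intervalIntegrable _ _
  rw [e]
  have c1 : Continuous (fun c : ℝ => ∫ z in (0:ℝ)..c, φ z) :=
    intervalIntegral.continuous_primitive
      (fun u v => hφ.intervalIntegrable u v) 0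
  have c2 : Continuous (fun c : ℝ => ∫ z in (0:ℝ)..c, z * φ z) :=
    intervalIntegral.continuous_primitive
      (fun u v => (by fun_prop : Continuous fun z : ℝ => z * φ z).intervalIntegrable u v) 0
  fun_prop

theorem tw_f4_core (a e : ℝ) (ha : 0 ≤ a) (he : 0 ≤ e) (hae : 0 < a + e) (R R1 R2 : ℝ → ℝ)
    (hR : ∀ x, HasDerivAt R (R1 x) x) (hR1 : ∀ x, HasDerivAt R1 (R2 x) x)
    (hR2 : Continuous R2)
    (hpos : ∀ z ∈ Icc (0:ℝ) 1, 0 ≤ R z) (hcc : ∀ z ∈ Icc (0:ℝ) 1, R2 z ≤ 0)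
    (τ : ℝ) (hτ : 0 < τ) :
    ∫ z in (0:ℝ)..1, (a + e * z) * (psi a e R z) ^ 2 ≤
      mA a e R / (2 * τ) + 20 * τ / (q1 a e * q2 a e) * Lf a e R
        * ∫ z in (0:ℝ)..1, (a + e * z) * (psi a e R z) ^ 2 := by
  have hRc : Continuous R := continuous_iff_continuousAt.mpr (fun x => (hR x).continuousAt)
  have hψ : Continuous (psi a e R) := tw_f4_psi_cont a e R hRc
  have hφ : Continuous (fun z : ℝ => (a + e * z) * psi a e R z) := by fun_prop
  have h0 : ∫ z in (0:ℝ)..1, (a + e * z) * psi a e R z = 0 := psi_orth0 a e ha he hae R hRc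
  have h1 : ∫ z in (0:ℝ)..1, z * ((a + e * z) * psi a e R z) = 0 :=
    psi_orth1 a e ha he hae R hRc
  have hS1 : ∫ z in (0:ℝ)..1, (a + e * z) * (psi a e R z) ^ 2
      = ∫ z in (0:ℝ)..1, (a + e * z) * psi a e R z * R z := Spsi_eq a e ha he hae R hRc
  have hS2 : ∫ z in (0:ℝ)..1, (a + e * z) * psi a e R z * R z
      = -(∫ c in (0:ℝ)..1, (-(R2 c)) * (∫ z in (0:ℝ)..c, (c - z) * ((a + e * z) * psi a e R z))) :=
    W_ibp R R1 R2 (fun z : ℝ => (a + e * z) * psi a e R z) hR hR1 hR2 hφ h0 h1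
  set Sp : ℝ := ∫ z in (0:ℝ)..1, (a + e * z) * (psi a e R z) ^ 2 with hSp
  have hq1 := q1_pos a e ha he hae
  have hq2 := q2_pos a e ha he hae
  have hWb : ∀ c ∈ Icc (0:ℝ) 1, |∫ z in (0:ℝ)..c, (c - z) * ((a + e * z) * psi a e R z)| ≤
      kA a e c / (2 * τ) + 20 * τ / (q1 a e * q2 a e) * kl a e c * Sp :=
    fun c hc => W_bound a e ha he hae (psi a e R) hψ h0 h1 c hc τ hτ
  have hl := l_eq a e R R1 R2 hR hR1 hR2
  have hA := A_eq a e R R1 R2 hR hR1 hR2
  have hWc : Continuous (fun c : ℝ => ∫ z in (0:ℝ)..c, (c - z) * ((a + e * z) * psi a e R z)) :=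
    tw_f4_W_cont (fun z : ℝ => (a + e * z) * psi a e R z) hφ
  have hkA : Continuous (fun c : ℝ => kA a e c) := by
    unfold kA
    fun_prop
  have hkl : Continuous (fun c : ℝ => kl a e c) := by
    unfold kl
    fun_prop
  have hmain : -(∫ c in (0:ℝ)..1, (-(R2 c)) * (∫ z in (0:ℝ)..c, (c - z) * ((a + e * z) * psi a e R z))) ≤
      ∫ c in (0:ℝ)..1, (-(R2 c)) * (kA a e c / (2 * τ)
        + 20 * τ / (q1 a e * q2 a e) * kl a e c * Sp) := by
    rw [← intervalIntegral.integral_neg]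
    apply intervalIntegral.integral_mono_on (by norm_num)
    · exact (by fun_prop : Continuous fun c : ℝ =>
        -((-(R2 c)) * (∫ z in (0:ℝ)..c, (c - z) * ((a + e * z) * psi a e R z)))).intervalIntegrable _ _
    · exact (by fun_prop : Continuous fun c : ℝ => (-(R2 c)) * (kA a e c / (2 * τ)
        + 20 * τ / (q1 a e * q2 a e) * kl a e c * Sp)).intervalIntegrable _ _
    · intro c hc
      have hρ : 0 ≤ -(R2 c) := by linarith [hcc c hc]
      have hb := hWb c hc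
      have hb' := (abs_le.mp hb).1
      nlinarith [mul_le_mul_of_nonneg_left (neg_le.mpr hb') hρ]
  have hsplit : ∫ c in (0:ℝ)..1, (-(R2 c)) * (kA a e c / (2 * τ)
        + 20 * τ / (q1 a e * q2 a e) * kl a e c * Sp) =
      (1 / (2 * τ)) * (∫ c in (0:ℝ)..1, (-(R2 c)) * kA a e c)
        + 20 * τ / (q1 a e * q2 a e) * Sp * ∫ c in (0:ℝ)..1, (-(R2 c)) * kl a e c := by
    rw [← intervalIntegral.integral_const_mul, ← intervalIntegral.integral_const_mul,
      ← intervalIntegral.integral_add]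
    · apply intervalIntegral.integral_congr
      intro c _
      simp only
      ring
    · exact (by fun_prop : Continuous fun c : ℝ =>
        (1 / (2 * τ)) * ((-(R2 c)) * kA a e c)).intervalIntegrable _ _
    · exact (by fun_prop : Continuous fun c : ℝ =>
        20 * τ / (q1 a e * q2 a e) * Sp * ((-(R2 c)) * kl a e c)).intervalIntegrable _ _
  have hR0 : 0 ≤ R 0 := hpos 0 (by simp)
  have hR1' : 0 ≤ R 1 := hpos 1 (by simp)
  have hle : Sp ≤ (1 / (2 * τ)) * (∫ c in (0:ℝ)..1, (-(R2 c)) * kA a e c)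
        + 20 * τ / (q1 a e * q2 a e) * Sp * ∫ c in (0:ℝ)..1, (-(R2 c)) * kl a e c := by
    rw [← hsplit]
    calc Sp = -(∫ c in (0:ℝ)..1, (-(R2 c)) * (∫ z in (0:ℝ)..c, (c - z) * ((a + e * z) * psi a e R z))) := by
          rw [hS1, hS2]
      _ ≤ _ := hmain
  rw [← hl] at hle
  have hA' : ∫ c in (0:ℝ)..1, (-(R2 c)) * kA a e c
      = mA a e R - R 0 * ((e + 3 * a) / 6) - R 1 * ((2 * e + 3 * a) / 6) := by
    linarith
  rw [hA'] at hle
  have hτ' : 0 < 1 / (2 * τ) := by positivity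
  have h3 : (1 / (2 * τ)) * (mA a e R - R 0 * ((e + 3 * a) / 6) - R 1 * ((2 * e + 3 * a) / 6))
      ≤ mA a e R / (2 * τ) := by
    rw [div_eq_mul_one_div (mA a e R), mul_comm (mA a e R)]
    apply mul_le_mul_of_nonneg_left _ hτ'.le
    have t1 : 0 ≤ R 0 * ((e + 3 * a) / 6) := mul_nonneg hR0 (by positivity)
    have t2 : 0 ≤ R 1 * ((2 * e + 3 * a) / 6) := mul_nonneg hR1' (by positivity)
    linarith
  have e4 : 20 * τ / (q1 a e * q2 a e) * Sp * Lf a e R
      = 20 * τ / (q1 a e * q2 a e) * Lf a e R * Sp := by ring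
  linarith

theorem F4 (a e : ℝ) (ha : 0 ≤ a) (he : 0 ≤ e) (hae : 0 < a + e) (R R1 R2 : ℝ → ℝ)
    (hR : ∀ x, HasDerivAt R (R1 x) x) (hR1 : ∀ x, HasDerivAt R1 (R2 x) x)
    (hR2 : Continuous R2)
    (hpos : ∀ z ∈ Icc (0:ℝ) 1, 0 ≤ R z) (hcc : ∀ z ∈ Icc (0:ℝ) 1, R2 z ≤ 0) :
    ∫ z in (0:ℝ)..1, (a + e * z) * (psi a e R z) ^ 2 ≤
      40 * mA a e R * Lf a e R / (q1 a e * q2 a e) := by
  have hcore := tw_f4_core a e ha he hae R R1 R2 hR hR1 hR2 hpos hcc
  set Sp : ℝ := ∫ z in (0:ℝ)..1, (a + e * z) * (psi a e R z) ^ 2 with hSp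
  have hq1 := q1_pos a e ha he hae
  have hq2 := q2_pos a e ha he hae
  have hq : 0 < q1 a e * q2 a e := mul_pos hq1 hq2
  have hSp0 : 0 ≤ Sp := by
    apply intervalIntegral.integral_nonneg (by norm_num)
    intro z hz
    exact mul_nonneg (by nlinarith [hz.1]) (sq_nonneg _)
  have hA0 : 0 ≤ mA a e R := by
    unfold mA
    apply intervalIntegral.integral_nonneg (by norm_num)
    intro z hz
    exact mul_nonneg (by nlinarith [hz.1]) (hpos z hz)
  have hl0 : 0 ≤ Lf a e R := by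
    rw [l_eq a e R R1 R2 hR hR1 hR2]
    apply intervalIntegral.integral_nonneg (by norm_num)
    intro c hc
    have hρ : 0 ≤ -(R2 c) := by linarith [hcc c hc]
    exact mul_nonneg hρ (kl_nonneg a e ha he c hc)
  rcases hl0.eq_or_lt with hl | hl
  · rw [← hl]
    simp only [mul_zero, zero_div]
    by_contra hcon
    have hSpos : 0 < Sp := lt_of_not_ge hcon
    have hτ : 0 < (mA a e R + 1) / (2 * Sp) := by positivity
    have h := hcore ((mA a e R + 1) / (2 * Sp)) hτ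
    rw [← hl] at h
    simp only [mul_zero, zero_mul, add_zero] at h
    have e1 : mA a e R / (2 * ((mA a e R + 1) / (2 * Sp))) = mA a e R * Sp / (mA a e R + 1) := by
      field_simp
    rw [e1, le_div_iff₀ (by linarith)] at h
    nlinarith
  · have hτ : 0 < q1 a e * q2 a e / (40 * Lf a e R) := by positivity
    have h := hcore (q1 a e * q2 a e / (40 * Lf a e R)) hτ
    have e1 : mA a e R / (2 * (q1 a e * q2 a e / (40 * Lf a e R)))
        = 20 * mA a e R * Lf a e R / (q1 a e * q2 a e) := by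
      field_simp
      ring
    have e2 : 20 * (q1 a e * q2 a e / (40 * Lf a e R)) / (q1 a e * q2 a e) * Lf a e R * Sp
        = Sp / 2 := by
      field_simp
      ring
    rw [e1, e2] at h
    have e3 : 40 * mA a e R * Lf a e R / (q1 a e * q2 a e)
        = 2 * (20 * mA a e R * Lf a e R / (q1 a e * q2 a e)) := by ring
    rw [e3]
    linarith

-- section F5A (helper68)
/-! ### F5A -/

/-- Tangent-line form. -/
theorem F5_rtan (a e A M1 M2 S : ℝ) (ha : 0 ≤ a) (he : 0 ≤ e) (hae : 0 < a + e) (hA : 0 ≤ A)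
    (hal : 0 ≤ (3 * e + 4 * a) * A - (4 * e + 6 * a) * M1)
    (hbe : 0 ≤ (2 * e + 6 * a) * M1 - (e + 2 * a) * A)
    (hl : 0 ≤ (6 * e ^ 2 + 32 * a * e + 30 * a ^ 2) * M1 / 5
      - (3 * e ^ 2 + 12 * a * e + 10 * a ^ 2) * A / 10 - Dl a e * M2)
    (hSle : S ≤ 6 * ((3 * e + 4 * a) * A - (4 * e + 6 * a) * M1) / Dl a e * (A - M1)
      + 6 * ((2 * e + 6 * a) * M1 - (e + 2 * a) * A) / Dl a e * M1
      + 40 * A * ((6 * e ^ 2 + 32 * a * e + 30 * a ^ 2) * M1 / 5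
          - (3 * e ^ 2 + 12 * a * e + 10 * a ^ 2) * A / 10 - Dl a e * M2) / (q1 a e * q2 a e)) :
    (a * A + e * M1) * S + 15 * A * (A * M2 - M1 ^ 2) ≤ 9 / 4 * A ^ 3 := by
  have hD : 0 < Dl a e := Dl_pos a e ha he hae
  have hQ1 : 0 < q1 a e := q1_pos a e ha he hae
  have hQ2 : 0 < q2 a e := q2_pos a e ha he hae
  have hDe : Dl a e = e ^ 2 + 6 * a * e + 6 * a ^ 2 := rfl
  have hQ1e : q1 a e = e ^ 2 + 8 * a * e + 10 * a ^ 2 := rfl
  have hQ2e : q2 a e = 2 * e + 3 * a := rfl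
  obtain ⟨D, hDdef⟩ : ∃ D : ℝ, D = Dl a e := ⟨_, rfl⟩
  obtain ⟨P, hP⟩ : ∃ P : ℝ, P = (3 * e + 4 * a) * A - (4 * e + 6 * a) * M1 := ⟨_, rfl⟩
  obtain ⟨B, hB⟩ : ∃ B : ℝ, B = (2 * e + 6 * a) * M1 - (e + 2 * a) * A := ⟨_, rfl⟩
  obtain ⟨L, hL⟩ : ∃ L : ℝ, L = (6 * e ^ 2 + 32 * a * e + 30 * a ^ 2) * M1 / 5
      - (3 * e ^ 2 + 12 * a * e + 10 * a ^ 2) * A / 10 - D * M2 := ⟨_, rfl⟩
  rw [← hDdef] at hl hSle hD
  rw [← hP] at hal hSle
  rw [← hB] at hbe hSle
  rw [← hL] at hl hSle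
  have hDe' : D = e ^ 2 + 6 * a * e + 6 * a ^ 2 := by rw [hDdef, hDe]
  have hDne : D ≠ 0 := hD.ne'
  -- (i) `M1 ≥ 0`
  have hM1 : 0 ≤ M1 := by
    have h1 : 0 ≤ (e + 2 * a) * A := mul_nonneg (by linarith) hA
    have h2 : 0 ≤ (2 * e + 6 * a) * M1 := by linarith
    have h3 : 0 < 2 * e + 6 * a := by linarith
    by_contra hneg
    have h4 : M1 < 0 := lt_of_not_ge hneg
    have h5 : (2 * e + 6 * a) * M1 < 0 := mul_neg_of_pos_of_neg h3 h4
    linarith
  have hc0 : 0 ≤ a * A + e * M1 := add_nonneg (mul_nonneg ha hA) (mul_nonneg he hM1)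
  have hS2 := mul_le_mul_of_nonneg_left hSle hc0
  -- (ii) the exact identity
  have hid : 9 / 4 * A ^ 3 - 15 * A * (A * M2 - M1 ^ 2)
      - (a * A + e * M1) * (6 * P / D * (A - M1) + 6 * B / D * M1)
      = ((a + e) * (6 * B / D) - a * (6 * P / D)) ^ 2
          * (a * (6 * B / D) + (a + e) * (6 * P / D)) / 96 + 15 * A ^ 2 * L / D := by
    have hM2 : M2 = ((6 * e ^ 2 + 32 * a * e + 30 * a ^ 2) * M1 / 5
        - (3 * e ^ 2 + 12 * a * e + 10 * a ^ 2) * A / 10 - L) / D := by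
      rw [hL]
      field_simp
      ring
    rw [hM2, hP, hB]
    field_simp
    rw [hDe']
    ring
  have hT : 0 ≤ ((a + e) * (6 * B / D) - a * (6 * P / D)) ^ 2
      * (a * (6 * B / D) + (a + e) * (6 * P / D)) / 96 := by
    have hb : 0 ≤ 6 * B / D := div_nonneg (by linarith) hD.le
    have hp : 0 ≤ 6 * P / D := div_nonneg (by linarith) hD.le
    have h1 : 0 ≤ a * (6 * B / D) + (a + e) * (6 * P / D) :=
      add_nonneg (mul_nonneg ha hb) (mul_nonneg hae.le hp)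
    exact div_nonneg (mul_nonneg (sq_nonneg _) h1) (by norm_num)
  -- (iii) the remaining comparison
  have h2Q : 2 * q2 a e * (a * A + e * M1) ≤ A * (3 * e ^ 2 + 8 * a * e + 6 * a ^ 2) := by
    have h1 : 0 ≤ e * P := mul_nonneg he hal
    rw [hP] at h1
    rw [hQ2e]
    nlinarith
  have hpoly : 4 * D * (3 * e ^ 2 + 8 * a * e + 6 * a ^ 2) ≤ 3 * q1 a e * q2 a e ^ 2 := by
    have h1 : 3 * q1 a e * q2 a e ^ 2 - 4 * D * (3 * e ^ 2 + 8 * a * e + 6 * a ^ 2)
        = 28 * a * e ^ 3 + 147 * a ^ 2 * e ^ 2 + 240 * a ^ 3 * e + 126 * a ^ 4 := by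
      rw [hQ1e, hQ2e, hDe']
      ring
    have h2 : 0 ≤ 28 * a * e ^ 3 + 147 * a ^ 2 * e ^ 2 + 240 * a ^ 3 * e + 126 * a ^ 4 := by
      positivity
    linarith
  have hkey : 40 * D * (a * A + e * M1) ≤ 15 * A * (q1 a e * q2 a e) := by
    have h1 : 20 * D * A * (3 * e ^ 2 + 8 * a * e + 6 * a ^ 2) ≤ 15 * A * q1 a e * q2 a e ^ 2 := by
      have := mul_le_mul_of_nonneg_left hpoly (mul_nonneg (by norm_num : (0:ℝ) ≤ 5) hA)
      linarith
    have h2 : 40 * D * q2 a e * (a * A + e * M1)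
        ≤ 20 * D * A * (3 * e ^ 2 + 8 * a * e + 6 * a ^ 2) := by
      have := mul_le_mul_of_nonneg_left h2Q (mul_nonneg (by norm_num : (0:ℝ) ≤ 20) hD.le)
      linarith
    have h3 : (40 * D * (a * A + e * M1)) * q2 a e ≤ (15 * A * (q1 a e * q2 a e)) * q2 a e := by
      linarith
    exact le_of_mul_le_mul_right h3 hQ2
  have h3 : (a * A + e * M1) * (40 * A * L / (q1 a e * q2 a e)) ≤ 15 * A ^ 2 * L / D := by
    rw [← mul_div_assoc, div_le_div_iff₀ (mul_pos hQ1 hQ2) hD]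
    have := mul_le_mul_of_nonneg_left hkey (mul_nonneg hA hl)
    linarith
  have hexp : (a * A + e * M1) * (6 * P / D * (A - M1) + 6 * B / D * M1
      + 40 * A * L / (q1 a e * q2 a e))
      = (a * A + e * M1) * (6 * P / D * (A - M1) + 6 * B / D * M1)
        + (a * A + e * M1) * (40 * A * L / (q1 a e * q2 a e)) := by ring
  rw [hexp] at hS2
  linarith

-- section F5B (helper34)
/-! ### F5B -/

/-- AM-GM step from the tangent-line form to the product form. -/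
theorem F5_amgm (X A V : ℝ) (hX : 0 ≤ X) (hA : 0 ≤ A) (h : X + 15 * A * V ≤ 9 / 4 * A ^ 3) :
    80 * X ^ 2 * V ≤ 9 * A ^ 8 := by
  rcases le_or_gt V 0 with hV | hV
  · have h1 : 80 * X ^ 2 * V ≤ 0 := by
      have h2 : 0 ≤ 80 * X ^ 2 := by positivity
      exact mul_nonpos_of_nonneg_of_nonpos h2 hV
    have h3 : 0 ≤ 9 * A ^ 8 := by positivity
    linarith
  · rcases eq_or_lt_of_le hA with hA0 | hApos
    · have hX0 : X = 0 := by
        rw [← hA0] at h
        have h1 : X ≤ 0 := by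
          norm_num at h
          linarith
        exact le_antisymm h1 hX
      rw [hX0, ← hA0]
      norm_num
    · obtain ⟨w, hwdef⟩ : ∃ w : ℝ, w = 15 * A * V := ⟨_, rfl⟩
      have hw : 0 < w := by
        rw [hwdef]
        positivity
      have hT : X + w ≤ 9 / 4 * A ^ 3 := by
        rw [hwdef]
        exact h
      have hT0 : 0 ≤ X + w := by linarith
      have hamgm : 27 * (X ^ 2 * w) ≤ 4 * (X + w) ^ 3 := by
        have h1 : 0 ≤ (X - 2 * w) ^ 2 * (4 * X + w) :=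
          mul_nonneg (sq_nonneg _) (by linarith)
        have e : 4 * (X + w) ^ 3 - 27 * (X ^ 2 * w) = (X - 2 * w) ^ 2 * (4 * X + w) := by ring
        linarith
      have hcube : (X + w) ^ 3 ≤ (9 / 4 * A ^ 3) ^ 3 := pow_le_pow_left₀ hT0 hT 3
      have e2 : (9 / 4 * A ^ 3) ^ 3 = 729 / 64 * A ^ 9 := by ring
      rw [e2] at hcube
      have h5 : X ^ 2 * (15 * A * V) ≤ 27 / 16 * A ^ 9 := by
        rw [← hwdef]
        linarith
      have h6 : A * (80 * X ^ 2 * V) ≤ A * (9 * A ^ 8) := by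
        have e3 : A * (80 * X ^ 2 * V) = 16 / 3 * (X ^ 2 * (15 * A * V)) := by ring
        have e4 : A * (9 * A ^ 8) = 16 / 3 * (27 / 16 * A ^ 9) := by ring
        rw [e3, e4]
        exact mul_le_mul_of_nonneg_left h5 (by norm_num)
      exact le_of_mul_le_mul_left h6 hApos

-- section ASM (helper3)
/-! ### ASM -/

/-- **(TW).** For `a, e ≥ 0`, `a + e > 0` and `R ≥ 0` with `R'' ≤ 0` on `[0,1]`, with the
moments for the weight `a + e z`:
`80 (a A + e M1)² S² (A M2 - M1²) ≤ 9 A⁸`. -/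
theorem tw_ineq (a e : ℝ) (ha : 0 ≤ a) (he : 0 ≤ e) (hae : 0 < a + e) (R R1 R2 : ℝ → ℝ)
    (hR : ∀ x, HasDerivAt R (R1 x) x) (hR1 : ∀ x, HasDerivAt R1 (R2 x) x)
    (hR2 : Continuous R2)
    (hpos : ∀ z ∈ Icc (0:ℝ) 1, 0 ≤ R z) (hcc : ∀ z ∈ Icc (0:ℝ) 1, R2 z ≤ 0) :
    80 * (a * mA a e R + e * mM1 a e R) ^ 2 * (mS a e R) ^ 2 *
        (mA a e R * mM2 a e R - (mM1 a e R) ^ 2) ≤ 9 * (mA a e R) ^ 8 := by
  have hRc : Continuous R := continuous_iff_continuousAt.2 fun x => (hR x).continuousAt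
  have h01 : (0:ℝ) ≤ 1 := zero_le_one
  have hR0 : 0 ≤ R 0 := hpos 0 ⟨le_rfl, h01⟩
  have hR1' : 0 ≤ R 1 := hpos 1 ⟨h01, le_rfl⟩
  have hw : ∀ z ∈ Icc (0:ℝ) 1, 0 ≤ a + e * z :=
    fun z hz => add_nonneg ha (mul_nonneg he hz.1)
  have hA : 0 ≤ mA a e R := by
    unfold mA
    apply intervalIntegral.integral_nonneg h01
    intro z hz
    exact mul_nonneg (hw z hz) (hpos z hz)
  have hM1 : 0 ≤ mM1 a e R := by
    unfold mM1
    apply intervalIntegral.integral_nonneg h01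
    intro z hz
    exact mul_nonneg (hw z hz) (mul_nonneg hz.1 (hpos z hz))
  have hS : 0 ≤ mS a e R := by
    unfold mS
    apply intervalIntegral.integral_nonneg h01
    intro z hz
    exact mul_nonneg (hw z hz) (sq_nonneg _)
  have hDl := Dl_pos a e ha he hae
  have hal : 0 ≤ (3 * e + 4 * a) * mA a e R - (4 * e + 6 * a) * mM1 a e R := by
    have h1 := al_eq a e R R1 R2 hR hR1 hR2
    have h2 : 0 ≤ ∫ c in (0:ℝ)..1, (-(R2 c)) * kal a e c := by
      apply intervalIntegral.integral_nonneg h01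
      intro c hc
      exact mul_nonneg (neg_nonneg.2 (hcc c hc)) (kal_nonneg a e ha he c hc)
    have h3 : 0 ≤ Dl a e * R 0 := mul_nonneg hDl.le hR0
    linarith
  have hbe : 0 ≤ (2 * e + 6 * a) * mM1 a e R - (e + 2 * a) * mA a e R := by
    have h1 := be_eq a e R R1 R2 hR hR1 hR2
    have h2 : 0 ≤ ∫ c in (0:ℝ)..1, (-(R2 c)) * kbe a e c := by
      apply intervalIntegral.integral_nonneg h01
      intro c hc
      exact mul_nonneg (neg_nonneg.2 (hcc c hc)) (kbe_nonneg a e ha he c hc)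
    have h3 : 0 ≤ Dl a e * R 1 := mul_nonneg hDl.le hR1'
    linarith
  have hl : 0 ≤ (6 * e ^ 2 + 32 * a * e + 30 * a ^ 2) * mM1 a e R / 5
      - (3 * e ^ 2 + 12 * a * e + 10 * a ^ 2) * mA a e R / 10 - Dl a e * mM2 a e R := by
    have h1 := l_eq a e R R1 R2 hR hR1 hR2
    have h2 : 0 ≤ ∫ c in (0:ℝ)..1, (-(R2 c)) * kl a e c := by
      apply intervalIntegral.integral_nonneg h01
      intro c hc
      exact mul_nonneg (neg_nonneg.2 (hcc c hc)) (kl_nonneg a e ha he c hc)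
    have h3 : 0 ≤ Lf a e R := by
      rw [h1]
      exact h2
    exact h3
  have hF4 := F4 a e ha he hae R R1 R2 hR hR1 hR2 hpos hcc
  have hsplit := S_split a e ha he hae R hRc
  have hSle : mS a e R ≤
      6 * ((3 * e + 4 * a) * mA a e R - (4 * e + 6 * a) * mM1 a e R) / Dl a e
          * (mA a e R - mM1 a e R)
      + 6 * ((2 * e + 6 * a) * mM1 a e R - (e + 2 * a) * mA a e R) / Dl a e * mM1 a e R
      + 40 * mA a e R * ((6 * e ^ 2 + 32 * a * e + 30 * a ^ 2) * mM1 a e R / 5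
          - (3 * e ^ 2 + 12 * a * e + 10 * a ^ 2) * mA a e R / 10 - Dl a e * mM2 a e R)
          / (q1 a e * q2 a e) := by
    have h5 : mS a e R ≤ al a e R * (mA a e R - mM1 a e R) + be a e R * mM1 a e R
        + 40 * mA a e R * Lf a e R / (q1 a e * q2 a e) := by
      rw [hsplit]
      linarith
    exact h5
  have hrt := F5_rtan a e (mA a e R) (mM1 a e R) (mM2 a e R) (mS a e R) ha he hae hA
    hal hbe hl hSle
  have hX : 0 ≤ (a * mA a e R + e * mM1 a e R) * mS a e R :=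
    mul_nonneg (add_nonneg (mul_nonneg ha hA) (mul_nonneg he hM1)) hS
  have hfin := F5_amgm ((a * mA a e R + e * mM1 a e R) * mS a e R) (mA a e R)
    (mA a e R * mM2 a e R - (mM1 a e R) ^ 2) hX hA hrt
  have e1 : 80 * ((a * mA a e R + e * mM1 a e R) * mS a e R) ^ 2 *
      (mA a e R * mM2 a e R - (mM1 a e R) ^ 2)
      = 80 * (a * mA a e R + e * mM1 a e R) ^ 2 * (mS a e R) ^ 2 *
        (mA a e R * mM2 a e R - (mM1 a e R) ^ 2) := by ring
  rw [← e1]
  exact hfin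

end Vale.Agent.Lib.P254.TW
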