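import Vale.Agent.Lib.P254.Ramp.Smooth
import Vale.Agent.Lib.P254.TW.Main

/-!
# P254, truncated-wedge class: from twice differentiable profiles to all concave profiles

The smoothing `Ramp.smooth R h` of `Ramp/Smooth.lean` is reused verbatim; only the convergence
of the four weighted moments (weight `a + e z`) is new.
-/

namespace Vale.Agent.Lib.P254.TW

open MeasureTheory intervalIntegral Set Filter Topology
open Vale.Agent.Lib.P254.Ramp (smooth smooth_deriv smooth_signs smdct_gen clampR_continuous)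

theorem tw_smdct_bound (a e B z r : ℝ) (k : ℕ) (ha : 0 ≤ a) (he : 0 ≤ e)
    (hz : z ∈ Icc (0:ℝ) 1) (hr : r ∈ Icc (0:ℝ) B) :
    |(a + e * z) * (z ^ k * r)| ≤ (a + e) * B := by
  have h1 : 0 ≤ z ^ k := pow_nonneg hz.1 k
  have h2 : z ^ k ≤ 1 := pow_le_one₀ hz.1 hz.2
  have h3 : 0 ≤ a + e * z := add_nonneg ha (mul_nonneg he hz.1)
  have h4 : a + e * z ≤ a + e := by nlinarith [hz.2]
  have hB : 0 ≤ B := le_trans hr.1 hr.2
  have h5 : 0 ≤ z ^ k * r := mul_nonneg h1 hr.1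
  have h6 : z ^ k * r ≤ B := by
    calc z ^ k * r ≤ 1 * r := mul_le_mul_of_nonneg_right h2 hr.1
      _ = r := one_mul r
      _ ≤ B := hr.2
  rw [abs_of_nonneg (mul_nonneg h3 h5)]
  calc (a + e * z) * (z ^ k * r) ≤ (a + e) * (z ^ k * r) := mul_le_mul_of_nonneg_right h4 h5
    _ ≤ (a + e) * B := mul_le_mul_of_nonneg_left h6 (add_nonneg ha he)

theorem tw_moments_tendsto (a e : ℝ) (ha : 0 ≤ a) (he : 0 ≤ e) (R : ℝ → ℝ)
    (hc : ConcaveOn ℝ (Icc (0:ℝ) 1) R) (hpos : ∀ z ∈ Icc (0:ℝ) 1, 0 ≤ R z) :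
    Tendsto (fun n : ℕ => mA a e (smooth R (1 / ((n:ℝ) + 9)))) atTop (𝓝 (mA a e R)) ∧
    Tendsto (fun n : ℕ => mM1 a e (smooth R (1 / ((n:ℝ) + 9)))) atTop (𝓝 (mM1 a e R)) ∧
    Tendsto (fun n : ℕ => mM2 a e (smooth R (1 / ((n:ℝ) + 9)))) atTop (𝓝 (mM2 a e R)) ∧
    Tendsto (fun n : ℕ => mS a e (smooth R (1 / ((n:ℝ) + 9)))) atTop (𝓝 (mS a e R)) := by
  refine ⟨?_, ?_, ?_, ?_⟩
  · have h := smdct_gen R hc hpos (fun z r => (a + e * z) * r) (by fun_prop)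
      ((a + e) * (2 * R (1 / 2)))
      (fun z hz r hr => by simpa using tw_smdct_bound a e (2 * R (1 / 2)) z r 0 ha he hz hr)
    exact h
  · have h := smdct_gen R hc hpos (fun z r => (a + e * z) * (z * r)) (by fun_prop)
      ((a + e) * (2 * R (1 / 2)))
      (fun z hz r hr => by simpa using tw_smdct_bound a e (2 * R (1 / 2)) z r 1 ha he hz hr)
    exact h
  · have h := smdct_gen R hc hpos (fun z r => (a + e * z) * (z ^ 2 * r)) (by fun_prop)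
      ((a + e) * (2 * R (1 / 2)))
      (fun z hz r hr => tw_smdct_bound a e (2 * R (1 / 2)) z r 2 ha he hz hr)
    exact h
  · have h := smdct_gen R hc hpos (fun z r => (a + e * z) * r ^ 2) (by fun_prop)
      ((a + e) * (2 * R (1 / 2)) ^ 2)
      (fun z hz r hr => by
        have h1 : r ^ 2 ∈ Icc (0:ℝ) ((2 * R (1 / 2)) ^ 2) :=
          ⟨pow_nonneg hr.1 2, pow_le_pow_left₀ hr.1 hr.2 2⟩
        simpa using tw_smdct_bound a e ((2 * R (1 / 2)) ^ 2) z (r ^ 2) 0 ha he hz h1)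
    exact h

/-- **(TW) for every concave profile.** For `a, e ≥ 0`, `a + e > 0` and `R ≥ 0` concave on
`[0,1]`, with the weight `w z = a + e z`:
`80 (∫ w² R)² (∫ w R²)² ((∫ w R)(∫ w z² R) - (∫ w z R)²) ≤ 9 (∫ w R)⁸`
(here `∫ w² R = a ∫ w R + e ∫ w z R`). -/
theorem tw_ineq_concave (a e : ℝ) (ha : 0 ≤ a) (he : 0 ≤ e) (hae : 0 < a + e) (R : ℝ → ℝ)
    (hc : ConcaveOn ℝ (Icc (0:ℝ) 1) R) (hpos : ∀ z ∈ Icc (0:ℝ) 1, 0 ≤ R z) :
    80 * (a * mA a e R + e * mM1 a e R) ^ 2 * (mS a e R) ^ 2 *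
        (mA a e R * mM2 a e R - (mM1 a e R) ^ 2) ≤ 9 * (mA a e R) ^ 8 := by
  obtain ⟨hA, hM1, hM2, hS⟩ := tw_moments_tendsto a e ha he R hc hpos
  have hineq : ∀ n : ℕ,
      80 * (a * mA a e (smooth R (1 / ((n:ℝ) + 9))) + e * mM1 a e (smooth R (1 / ((n:ℝ) + 9)))) ^ 2
        * (mS a e (smooth R (1 / ((n:ℝ) + 9)))) ^ 2 *
        (mA a e (smooth R (1 / ((n:ℝ) + 9))) * mM2 a e (smooth R (1 / ((n:ℝ) + 9)))
          - (mM1 a e (smooth R (1 / ((n:ℝ) + 9)))) ^ 2)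
        ≤ 9 * (mA a e (smooth R (1 / ((n:ℝ) + 9)))) ^ 8 := by
    intro n
    have hn : (0:ℝ) < (n:ℝ) + 9 := by positivity
    have hh : (0:ℝ) < 1 / ((n:ℝ) + 9) := by positivity
    have hh8 : 1 / ((n:ℝ) + 9) < 1 / 8 := by
      apply one_div_lt_one_div_of_lt (by norm_num)
      have : (0:ℝ) ≤ (n:ℝ) := Nat.cast_nonneg n
      linarith
    have hh2 : 1 / ((n:ℝ) + 9) < 1 / 2 := by linarith
    have hcont := clampR_continuous R hc _ hh hh2
    obtain ⟨d1, d2, d3⟩ := smooth_deriv R _ hcont (ne_of_gt hh)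
    obtain ⟨s1, _, s3⟩ := smooth_signs R hc hpos _ hh hh8
    exact tw_ineq a e ha he hae _ _ _ d1 d2 d3 s1 s3
  have hL : Tendsto (fun n : ℕ =>
      80 * (a * mA a e (smooth R (1 / ((n:ℝ) + 9))) + e * mM1 a e (smooth R (1 / ((n:ℝ) + 9)))) ^ 2
        * (mS a e (smooth R (1 / ((n:ℝ) + 9)))) ^ 2 *
        (mA a e (smooth R (1 / ((n:ℝ) + 9))) * mM2 a e (smooth R (1 / ((n:ℝ) + 9)))
          - (mM1 a e (smooth R (1 / ((n:ℝ) + 9)))) ^ 2)) atTop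
      (𝓝 (80 * (a * mA a e R + e * mM1 a e R) ^ 2 * (mS a e R) ^ 2 *
        (mA a e R * mM2 a e R - (mM1 a e R) ^ 2))) :=
    (((((hA.const_mul a).add (hM1.const_mul e)).pow 2).const_mul 80).mul (hS.pow 2)).mul
      ((hA.mul hM2).sub (hM1.pow 2))
  have hRt : Tendsto (fun n : ℕ => 9 * (mA a e (smooth R (1 / ((n:ℝ) + 9)))) ^ 8) atTop
      (𝓝 (9 * (mA a e R) ^ 8)) := (hA.pow 8).const_mul 9
  exact le_of_tendsto_of_tendsto' hL hRt hineq

end Vale.Agent.Lib.P254.TW
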